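import Mathlib
import Crest.Agent.Lib.S0324.Area

/-!
# Row 211: thickening a parallelogram in the plane `u^⊥` to a bounded relatively open base

For a unit vector `u` and `c, a, b ⊥ u` with `0 < gram a b` and `η > 0` the set
`openBase u c a b η = {z | s(z), t(z) ∈ (-η, 1+η)} ∩ u^⊥` (`s`, `t` the Cramer coordinates of `z - c`
with respect to `a`, `b`) is bounded, is the trace on `u^⊥` of an open set, contains the closed
parallelogram `c + [0,1]a + [0,1]b` and has `μHE[2]` at most `(1+2η)² √(gram a b)`.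
Used for S0327 (2) and S0329.
-/

set_option autoImplicit false
open MeasureTheory
open scoped ENNReal
open Crest.Agent.S0324

namespace Crest.Agent.S0327.Helper34

theorem inner3 (x y : E3) : inner ℝ x y = x 0 * y 0 + x 1 * y 1 + x 2 * y 2 := by
  simp [EuclideanSpace.inner_eq_star_dotProduct, dotProduct, Fin.sum_univ_three]
  ring

theorem normsq3 (x : E3) : ‖x‖ ^ 2 = x 0 ^ 2 + x 1 ^ 2 + x 2 ^ 2 := by
  rw [← real_inner_self_eq_norm_sq, inner3]; ring

theorem gram3 (a b : E3) : gram a b = (a 0 ^ 2 + a 1 ^ 2 + a 2 ^ 2) * (b 0 ^ 2 + b 1 ^ 2 + b 2 ^ 2)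
    - (a 0 * b 0 + a 1 * b 1 + a 2 * b 2) ^ 2 := by
  unfold gram
  rw [normsq3, normsq3, inner3]

/-- Scaling the two vectors scales the Gram determinant by the squares. -/
theorem gram_smul (x y : ℝ) (a b : E3) : gram (x • a) (y • b) = x ^ 2 * y ^ 2 * gram a b := by
  unfold gram
  rw [norm_smul, norm_smul, inner_smul_left, inner_smul_right, mul_pow, mul_pow,
    Real.norm_eq_abs, Real.norm_eq_abs, sq_abs, sq_abs]
  simp only [conj_trivial]
  ring

theorem sqrt_gram_smul (x y : ℝ) (hx : 0 ≤ x) (hy : 0 ≤ y) (a b : E3) :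
    Real.sqrt (gram (x • a) (y • b)) = x * y * Real.sqrt (gram a b) := by
  rw [gram_smul, show x ^ 2 * y ^ 2 * gram a b = (x * y) ^ 2 * gram a b by ring,
    Real.sqrt_mul (sq_nonneg _), Real.sqrt_sq (mul_nonneg hx hy)]

/-- In `ℝ³`, a vector orthogonal to `u` and to two independent vectors of `u^⊥` vanishes. -/
theorem eq_zero_of_perp (u a b d : E3) (hu : ‖u‖ = 1) (ha : inner ℝ a u = 0) (hb : inner ℝ b u = 0)
    (hg : 0 < gram a b) (hda : inner ℝ d a = 0) (hdb : inner ℝ d b = 0) (hdu : inner ℝ d u = 0) :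
    d = 0 := by
  have hu2 : ‖u‖ ^ 2 = 1 := by rw [hu]; norm_num
  rw [normsq3] at hu2
  rw [inner3] at ha hb hda hdb hdu
  rw [gram3] at hg
  set Δ : ℝ := a 0 * (b 1 * u 2 - b 2 * u 1) - a 1 * (b 0 * u 2 - b 2 * u 0)
    + a 2 * (b 0 * u 1 - b 1 * u 0) with hΔ
  have key : Δ ^ 2 = (a 0 ^ 2 + a 1 ^ 2 + a 2 ^ 2) * (b 0 ^ 2 + b 1 ^ 2 + b 2 ^ 2)
      - (a 0 * b 0 + a 1 * b 1 + a 2 * b 2) ^ 2 := by
    have e1 : Δ ^ 2 = (a 0 ^ 2 + a 1 ^ 2 + a 2 ^ 2) * (b 0 ^ 2 + b 1 ^ 2 + b 2 ^ 2)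
          * (u 0 ^ 2 + u 1 ^ 2 + u 2 ^ 2)
        + 2 * (a 0 * b 0 + a 1 * b 1 + a 2 * b 2) * (b 0 * u 0 + b 1 * u 1 + b 2 * u 2)
          * (a 0 * u 0 + a 1 * u 1 + a 2 * u 2)
        - (a 0 ^ 2 + a 1 ^ 2 + a 2 ^ 2) * (b 0 * u 0 + b 1 * u 1 + b 2 * u 2) ^ 2
        - (b 0 ^ 2 + b 1 ^ 2 + b 2 ^ 2) * (a 0 * u 0 + a 1 * u 1 + a 2 * u 2) ^ 2
        - (u 0 ^ 2 + u 1 ^ 2 + u 2 ^ 2) * (a 0 * b 0 + a 1 * b 1 + a 2 * b 2) ^ 2 := by
      rw [hΔ]; ring
    rw [e1, ha, hb, hu2]; ring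
  have hΔ0 : Δ ≠ 0 := by
    intro h0
    rw [h0] at key
    nlinarith
  have h0 : d 0 * Δ = 0 := by
    have : d 0 * Δ = (d 0 * a 0 + d 1 * a 1 + d 2 * a 2) * (b 1 * u 2 - b 2 * u 1)
        + (d 0 * b 0 + d 1 * b 1 + d 2 * b 2) * (u 1 * a 2 - u 2 * a 1)
        + (d 0 * u 0 + d 1 * u 1 + d 2 * u 2) * (a 1 * b 2 - a 2 * b 1) := by
      rw [hΔ]; ring
    rw [this, hda, hdb, hdu]; ring
  have h1 : d 1 * Δ = 0 := by
    have : d 1 * Δ = (d 0 * a 0 + d 1 * a 1 + d 2 * a 2) * (b 2 * u 0 - b 0 * u 2)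
        + (d 0 * b 0 + d 1 * b 1 + d 2 * b 2) * (u 2 * a 0 - u 0 * a 2)
        + (d 0 * u 0 + d 1 * u 1 + d 2 * u 2) * (a 2 * b 0 - a 0 * b 2) := by
      rw [hΔ]; ring
    rw [this, hda, hdb, hdu]; ring
  have h2 : d 2 * Δ = 0 := by
    have : d 2 * Δ = (d 0 * a 0 + d 1 * a 1 + d 2 * a 2) * (b 0 * u 1 - b 1 * u 0)
        + (d 0 * b 0 + d 1 * b 1 + d 2 * b 2) * (u 0 * a 1 - u 1 * a 0)
        + (d 0 * u 0 + d 1 * u 1 + d 2 * u 2) * (a 0 * b 1 - a 1 * b 0) := by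
      rw [hΔ]; ring
    rw [this, hda, hdb, hdu]; ring
  ext i
  fin_cases i
  · simpa using (mul_eq_zero.mp h0).resolve_right hΔ0
  · simpa using (mul_eq_zero.mp h1).resolve_right hΔ0
  · simpa using (mul_eq_zero.mp h2).resolve_right hΔ0

/-- First Cramer coordinate of `z - c` with respect to `a`, `b`. -/
noncomputable def sCo (c a b z : E3) : ℝ :=
  (inner ℝ (z - c) a * ‖b‖ ^ 2 - inner ℝ (z - c) b * inner ℝ a b) / gram a b

/-- Second Cramer coordinate of `z - c` with respect to `a`, `b`. -/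
noncomputable def tCo (c a b z : E3) : ℝ :=
  (inner ℝ (z - c) b * ‖a‖ ^ 2 - inner ℝ (z - c) a * inner ℝ a b) / gram a b

theorem continuous_sCo (c a b : E3) : Continuous (sCo c a b) := by
  unfold sCo
  fun_prop

theorem continuous_tCo (c a b : E3) : Continuous (tCo c a b) := by
  unfold tCo
  fun_prop

theorem sCo_param (c a b : E3) (hg : gram a b ≠ 0) (s t : ℝ) :
    sCo c a b (c + s • a + t • b) = s := by
  unfold sCo
  have h1 : c + s • a + t • b - c = s • a + t • b := by abel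
  rw [h1, inner_add_left, inner_add_left, inner_smul_left, inner_smul_left, inner_smul_left,
    inner_smul_left, real_inner_self_eq_norm_sq, real_inner_self_eq_norm_sq,
    real_inner_comm a b]
  simp only [conj_trivial]
  rw [div_eq_iff hg]
  unfold gram
  ring

theorem tCo_param (c a b : E3) (hg : gram a b ≠ 0) (s t : ℝ) :
    tCo c a b (c + s • a + t • b) = t := by
  unfold tCo
  have h1 : c + s • a + t • b - c = s • a + t • b := by abel
  rw [h1, inner_add_left, inner_add_left, inner_smul_left, inner_smul_left, inner_smul_left,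
    inner_smul_left, real_inner_self_eq_norm_sq, real_inner_self_eq_norm_sq,
    real_inner_comm a b]
  simp only [conj_trivial]
  rw [div_eq_iff hg]
  unfold gram
  ring

/-- A point of the plane `u^⊥` is recovered from its Cramer coordinates. -/
theorem eq_param_of_perp (u c a b z : E3) (hu : ‖u‖ = 1) (hc : inner ℝ c u = 0)
    (ha : inner ℝ a u = 0) (hb : inner ℝ b u = 0) (hg : 0 < gram a b) (hz : inner ℝ z u = 0) :
    z = c + sCo c a b z • a + tCo c a b z • b := by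
  have hg' : gram a b ≠ 0 := ne_of_gt hg
  have hd : z - c - sCo c a b z • a - tCo c a b z • b = 0 := by
    apply eq_zero_of_perp u a b _ hu ha hb hg
    · rw [inner_sub_left, inner_sub_left, inner_smul_left, inner_smul_left,
        real_inner_self_eq_norm_sq, real_inner_comm a b]
      simp only [conj_trivial]
      unfold sCo tCo
      field_simp
      unfold gram
      ring
    · rw [inner_sub_left, inner_sub_left, inner_smul_left, inner_smul_left,
        real_inner_self_eq_norm_sq]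
      simp only [conj_trivial]
      unfold sCo tCo
      field_simp
      unfold gram
      ring
    · rw [inner_sub_left, inner_sub_left, inner_sub_left, inner_smul_left, inner_smul_left,
        hz, hc, ha, hb]
      simp
  have : z = (z - c - sCo c a b z • a - tCo c a b z • b) + (c + sCo c a b z • a + tCo c a b z • b) := by
    abel
  rw [hd, zero_add] at this
  exact this

/-- The thickened relatively open base. -/
def openBase (u c a b : E3) (η : ℝ) : Set E3 :=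
  {z : E3 | sCo c a b z ∈ Set.Ioo (-η) (1 + η) ∧ tCo c a b z ∈ Set.Ioo (-η) (1 + η)} ∩
    {x : E3 | inner ℝ x u = 0}

theorem isOpen_openBase_aux (c a b : E3) (η : ℝ) :
    IsOpen {z : E3 | sCo c a b z ∈ Set.Ioo (-η) (1 + η) ∧ tCo c a b z ∈ Set.Ioo (-η) (1 + η)} := by
  have h1 : IsOpen (sCo c a b ⁻¹' Set.Ioo (-η) (1 + η)) := isOpen_Ioo.preimage (continuous_sCo c a b)
  have h2 : IsOpen (tCo c a b ⁻¹' Set.Ioo (-η) (1 + η)) := isOpen_Ioo.preimage (continuous_tCo c a b)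
  exact h1.inter h2

/-- The closed parallelogram is contained in the thickened base. -/
theorem parallelogram_subset_openBase (u c a b : E3) (hc : inner ℝ c u = 0)
    (ha : inner ℝ a u = 0) (hb : inner ℝ b u = 0) (hg : 0 < gram a b) (η : ℝ) (hη : 0 < η) :
    {x : E3 | ∃ s ∈ Set.Icc (0 : ℝ) 1, ∃ t ∈ Set.Icc (0 : ℝ) 1, x = c + s • a + t • b} ⊆
      openBase u c a b η := by
  rintro x ⟨s, hs, t, ht, rfl⟩
  have hg' : gram a b ≠ 0 := ne_of_gt hg
  refine ⟨⟨?_, ?_⟩, ?_⟩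
  · rw [sCo_param c a b hg']
    exact ⟨by linarith [hs.1], by linarith [hs.2]⟩
  · rw [tCo_param c a b hg']
    exact ⟨by linarith [ht.1], by linarith [ht.2]⟩
  · show inner ℝ (c + s • a + t • b) u = 0
    rw [inner_add_left, inner_add_left, inner_smul_left, inner_smul_left, hc, ha, hb]
    simp

/-- The thickened base is contained in a slightly larger closed parallelogram. -/
theorem openBase_subset_parallelogram (u c a b : E3) (hu : ‖u‖ = 1) (hc : inner ℝ c u = 0)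
    (ha : inner ℝ a u = 0) (hb : inner ℝ b u = 0) (hg : 0 < gram a b) (η : ℝ) (hη : 0 < η) :
    openBase u c a b η ⊆
      {x : E3 | ∃ s ∈ Set.Icc (0 : ℝ) 1, ∃ t ∈ Set.Icc (0 : ℝ) 1,
        x = (c - η • a - η • b) + s • ((1 + 2 * η) • a) + t • ((1 + 2 * η) • b)} := by
  rintro z ⟨⟨hs, ht⟩, hz⟩
  have hz' : inner ℝ z u = 0 := hz
  have hη' : (0 : ℝ) < 1 + 2 * η := by linarith
  have hzeq := eq_param_of_perp u c a b z hu hc ha hb hg hz'
  refine ⟨(sCo c a b z + η) / (1 + 2 * η), ⟨?_, ?_⟩, (tCo c a b z + η) / (1 + 2 * η), ⟨?_, ?_⟩, ?_⟩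
  · exact div_nonneg (by linarith [hs.1]) hη'.le
  · rw [div_le_one hη']; linarith [hs.2]
  · exact div_nonneg (by linarith [ht.1]) hη'.le
  · rw [div_le_one hη']; linarith [ht.2]
  · rw [smul_smul, smul_smul, div_mul_cancel₀ _ (ne_of_gt hη'), div_mul_cancel₀ _ (ne_of_gt hη')]
    conv_lhs => rw [hzeq]
    rw [add_smul, add_smul]
    abel

theorem isBounded_parallelogram (c a b : E3) :
    Bornology.IsBounded
      {x : E3 | ∃ s ∈ Set.Icc (0 : ℝ) 1, ∃ t ∈ Set.Icc (0 : ℝ) 1, x = c + s • a + t • b} := by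
  rw [isBounded_iff_forall_norm_le]
  refine ⟨‖c‖ + ‖a‖ + ‖b‖, ?_⟩
  rintro x ⟨s, hs, t, ht, rfl⟩
  have h1 : ‖s • a‖ ≤ ‖a‖ := by
    rw [norm_smul, Real.norm_eq_abs, abs_of_nonneg hs.1]
    exact mul_le_of_le_one_left (norm_nonneg _) hs.2
  have h2 : ‖t • b‖ ≤ ‖b‖ := by
    rw [norm_smul, Real.norm_eq_abs, abs_of_nonneg ht.1]
    exact mul_le_of_le_one_left (norm_nonneg _) ht.2
  calc ‖c + s • a + t • b‖ ≤ ‖c + s • a‖ + ‖t • b‖ := norm_add_le _ _
    _ ≤ ‖c‖ + ‖s • a‖ + ‖t • b‖ := by gcongr; exact norm_add_le _ _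
    _ ≤ ‖c‖ + ‖a‖ + ‖b‖ := by gcongr

/-- **Open thickening.** For a unit vector `u`, vectors `c, a, b ⊥ u` with `0 < gram a b` and
`η > 0` there is a bounded set `B = O ∩ u^⊥`, `O` open, containing the closed parallelogram
`c + [0,1]a + [0,1]b`, with `μHE[2] B ≤ (1+2η)² √(gram a b)`. -/
theorem exists_open_base (u c a b : E3) (hu : ‖u‖ = 1) (hc : inner ℝ c u = 0)
    (ha : inner ℝ a u = 0) (hb : inner ℝ b u = 0) (hg : 0 < gram a b) (η : ℝ) (hη : 0 < η) :
    ∃ B : Set E3, Bornology.IsBounded B ∧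
      (∃ O : Set E3, IsOpen O ∧ B = O ∩ {x | inner ℝ x u = 0}) ∧
      {x : E3 | ∃ s ∈ Set.Icc (0 : ℝ) 1, ∃ t ∈ Set.Icc (0 : ℝ) 1, x = c + s • a + t • b} ⊆ B ∧
      μHE[2] B ≤ ENNReal.ofReal ((1 + 2 * η) ^ 2 * Real.sqrt (gram a b)) := by
  have hsub := openBase_subset_parallelogram u c a b hu hc ha hb hg η hη
  refine ⟨openBase u c a b η, ?_, ⟨_, isOpen_openBase_aux c a b η, rfl⟩,
    parallelogram_subset_openBase u c a b hc ha hb hg η hη, ?_⟩
  · exact (isBounded_parallelogram _ _ _).subset hsub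
  · calc μHE[2] (openBase u c a b η)
        ≤ μHE[2] {x : E3 | ∃ s ∈ Set.Icc (0 : ℝ) 1, ∃ t ∈ Set.Icc (0 : ℝ) 1,
            x = (c - η • a - η • b) + s • ((1 + 2 * η) • a) + t • ((1 + 2 * η) • b)} :=
          measure_mono hsub
      _ = ENNReal.ofReal (Real.sqrt (gram ((1 + 2 * η) • a) ((1 + 2 * η) • b))) :=
          muHE_parallelogram _ _ _
      _ = ENNReal.ofReal ((1 + 2 * η) ^ 2 * Real.sqrt (gram a b)) := by
          rw [sqrt_gram_smul _ _ (by linarith) (by linarith)]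
          congr 1
          ring

end Crest.Agent.S0327.Helper34
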