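import Mathlib
import Crest.Agent.Lib.S0324.Area
import Crest.Agent.Lib.S0327.Helper34Open

/-!
# Row 211, statement S0327: parallelogram / open-base cylinder covers of a regular tetrahedron

Package P5b.  From a triangle cover of the regular tetrahedron (the statement `tetra_cover` of
package P5a, taken here as a hypothesis) we build a cover by cylinders over parallelograms (a
staircase of `n` parallelograms over every triangle, total area `(1 + 1/n)` times the triangle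
area) and then thicken every parallelogram to a bounded relatively open base
(`Helper34.exists_open_base`).  `main_of` is the statement of S0327 with the three facts of
package P5a as hypotheses.
-/

set_option autoImplicit false
open MeasureTheory
open scoped ENNReal
open Crest.Agent.S0324

namespace Crest.Agent.S0327.Helper34

/-- Every point of a triangle is `P + α (Q - P) + β (R - P)` with `α, β ≥ 0`, `α + β ≤ 1`. -/
theorem triangle_param (P Q R x : E3) (hx : x ∈ convexHull ℝ ({P, Q, R} : Set E3)) :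
    ∃ α β : ℝ, 0 ≤ α ∧ 0 ≤ β ∧ α + β ≤ 1 ∧ x = P + α • (Q - P) + β • (R - P) := by
  rw [convexHull_insert (Set.insert_nonempty _ _), convexHull_pair, mem_convexJoin] at hx
  obtain ⟨y, hy, z, hz, hxz⟩ := hx
  rw [Set.mem_singleton_iff] at hy
  subst hy
  obtain ⟨a1, b1, ha1, hb1, hab1, rfl⟩ := hz
  obtain ⟨a2, b2, ha2, hb2, hab2, rfl⟩ := hxz
  refine ⟨b2 * a1, b2 * b1, by positivity, by positivity, ?_, ?_⟩
  · nlinarith
  · have e2 : a2 = 1 - b2 := by linarith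
    have e1 : a1 = 1 - b1 := by linarith
    subst e2 e1
    module

/-- The staircase: a point of the triangle lies in one of the `n` parallelograms. -/
theorem staircase_cover (n : ℕ) (hn : 0 < n) (P a b : E3) (α β : ℝ) (hα : 0 ≤ α) (hβ : 0 ≤ β)
    (hαβ : α + β ≤ 1) :
    ∃ k : Fin n, ∃ s ∈ Set.Icc (0 : ℝ) 1, ∃ t ∈ Set.Icc (0 : ℝ) 1,
      P + α • a + β • b = (P + (((k : ℕ) : ℝ) / (n : ℝ)) • a) + s • ((1 / (n : ℝ)) • a)
        + t • ((1 - ((k : ℕ) : ℝ) / (n : ℝ)) • b) := by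
  have hn' : (0 : ℝ) < n := by exact_mod_cast hn
  set k0 : ℕ := min ⌊(n : ℝ) * α⌋₊ (n - 1) with hk0
  have hk0lt : k0 < n := lt_of_le_of_lt (min_le_right _ _) (Nat.sub_lt hn one_pos)
  have hk0le : (k0 : ℝ) ≤ n * α := by
    calc (k0 : ℝ) ≤ (⌊(n : ℝ) * α⌋₊ : ℝ) := by exact_mod_cast min_le_left _ _
      _ ≤ n * α := Nat.floor_le (by positivity)
  have hk0ge : (n : ℝ) * α ≤ k0 + 1 := by
    rcases le_total ⌊(n : ℝ) * α⌋₊ (n - 1) with h | h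
    · have e : k0 = ⌊(n : ℝ) * α⌋₊ := min_eq_left h
      rw [e]
      exact (Nat.lt_floor_add_one _).le
    · have e : k0 = n - 1 := min_eq_right h
      rw [e]
      have h1 : ((n - 1 : ℕ) : ℝ) = (n : ℝ) - 1 := by
        rw [Nat.cast_sub hn]; simp
      rw [h1]
      have : α ≤ 1 := by linarith
      nlinarith
  have hpos : 0 < 1 - (k0 : ℝ) / n := by
    rw [sub_pos, div_lt_one hn']
    exact_mod_cast hk0lt
  have hle : β ≤ 1 - (k0 : ℝ) / n := by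
    have : (k0 : ℝ) / n ≤ α := by
      rw [div_le_iff₀ hn']; linarith
    linarith
  refine ⟨⟨k0, hk0lt⟩, n * α - k0, ⟨by linarith, by linarith⟩, β / (1 - (k0 : ℝ) / n),
    ⟨div_nonneg hβ hpos.le, ?_⟩, ?_⟩
  · rw [div_le_one hpos]; exact hle
  · simp only [smul_smul]
    rw [div_mul_cancel₀ _ (ne_of_gt hpos)]
    have e : α = (k0 : ℝ) / n + (n * α - k0) * (1 / n) := by
      field_simp; ring
    have e' : α • a = ((k0 : ℝ) / n) • a + ((n * α - k0) * (1 / n)) • a := by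
      rw [← add_smul, ← e]
    rw [e']
    abel

/-- Total relative area of the staircase. -/
theorem staircase_sum (n : ℕ) (hn : 0 < n) :
    ∑ k : Fin n, (1 / (n : ℝ)) * (1 - ((k : ℕ) : ℝ) / n) = (1 + 1 / (n : ℝ)) / 2 := by
  have hn' : (n : ℝ) ≠ 0 := by positivity
  rw [Fin.sum_univ_eq_sum_range (fun k => (1 / (n : ℝ)) * (1 - (k : ℝ) / n)) n]
  have h : ∀ m : ℕ, ∑ k ∈ Finset.range m, (k : ℝ) = m * (m - 1) / 2 := by
    intro m
    induction m with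
    | zero => simp
    | succ m ih => rw [Finset.sum_range_succ, ih]; push_cast; ring
  rw [← Finset.mul_sum, Finset.sum_sub_distrib, ← Finset.sum_div, h]
  simp only [Finset.sum_const, Finset.card_range, nsmul_eq_mul, mul_one]
  field_simp
  ring

/-- Part (1) of S0327 for an arbitrary finite index type. -/
def Part1 (K : Set E3) (ι : Type) [Fintype ι] (u c a b : ι → E3) : Prop :=
  (∀ i, ‖u i‖ = 1) ∧
  (∀ i, inner ℝ (c i) (u i) = 0 ∧ inner ℝ (a i) (u i) = 0 ∧ inner ℝ (b i) (u i) = 0) ∧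
  K ⊆ ⋃ i, {x : E3 |
    ∃ s ∈ Set.Icc (0 : ℝ) 1, ∃ t ∈ Set.Icc (0 : ℝ) 1, ∃ τ : ℝ, x = c i + s • a i + t • b i + τ • u i} ∧
  (∃ δ : ℝ, 0 < δ ∧ ∀ v : E3, ‖v‖ = 1 →
    (∑ i, (μHE[2] {x : E3 |
        ∃ s ∈ Set.Icc (0 : ℝ) 1, ∃ t ∈ Set.Icc (0 : ℝ) 1, x = c i + s • a i + t • b i}).toReal) + δ ≤
      (μHE[2] ((fun y => y - inner ℝ y v • v) '' K)).toReal / 2) ∧
  ∑ i, (μHE[2] {x : E3 |
        ∃ s ∈ Set.Icc (0 : ℝ) 1, ∃ t ∈ Set.Icc (0 : ℝ) 1, x = c i + s • a i + t • b i}).toReal /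
      (μHE[2] ((fun y => y - inner ℝ y (u i) • u i) '' K)).toReal < 1 / 2

/-- Part (2) of S0327 for an arbitrary finite index type. -/
def Part2 (K : Set E3) (ι : Type) [Fintype ι] (u : ι → E3) (B : ι → Set E3) : Prop :=
  (∀ i, ‖u i‖ = 1) ∧
  (∀ i, Bornology.IsBounded (B i) ∧ ∃ O : Set E3, IsOpen O ∧
    B i = O ∩ {x | inner ℝ x (u i) = 0}) ∧
  K ⊆ ⋃ i, {x : E3 | ∃ y ∈ B i, ∃ τ : ℝ, x = y + τ • u i} ∧
  (∃ δ : ℝ, 0 < δ ∧ ∀ v : E3, ‖v‖ = 1 →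
    (∑ i, (μHE[2] (B i)).toReal) + δ ≤
      (μHE[2] ((fun y => y - inner ℝ y v • v) '' K)).toReal / 2) ∧
  ∑ i, (μHE[2] (B i)).toReal /
      (μHE[2] ((fun y => y - inner ℝ y (u i) • u i) '' K)).toReal < 1 / 2

theorem Part1.reindex {K : Set E3} {ι κ : Type} [Fintype ι] [Fintype κ] (e : κ ≃ ι)
    {u c a b : ι → E3} (h : Part1 K ι u c a b) :
    Part1 K κ (fun j => u (e j)) (fun j => c (e j)) (fun j => a (e j)) (fun j => b (e j)) := by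
  obtain ⟨h1, h2, h3, ⟨δ, hδ, h4⟩, h5⟩ := h
  refine ⟨fun j => h1 (e j), fun j => h2 (e j), ?_, ⟨δ, hδ, ?_⟩, ?_⟩
  · intro x hx
    obtain ⟨i, hi⟩ := Set.mem_iUnion.mp (h3 hx)
    refine Set.mem_iUnion.mpr ⟨e.symm i, ?_⟩
    simpa using hi
  · intro v hv
    have h := h4 v hv
    rw [← Equiv.sum_comp e] at h
    exact h
  · rw [← Equiv.sum_comp e] at h5
    exact h5

theorem Part2.reindex {K : Set E3} {ι κ : Type} [Fintype ι] [Fintype κ] (e : κ ≃ ι)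
    {u : ι → E3} {B : ι → Set E3} (h : Part2 K ι u B) :
    Part2 K κ (fun j => u (e j)) (fun j => B (e j)) := by
  obtain ⟨h1, h2, h3, ⟨δ, hδ, h4⟩, h5⟩ := h
  refine ⟨fun j => h1 (e j), fun j => h2 (e j), ?_, ⟨δ, hδ, ?_⟩, ?_⟩
  · intro x hx
    obtain ⟨i, hi⟩ := Set.mem_iUnion.mp (h3 hx)
    refine Set.mem_iUnion.mpr ⟨e.symm i, ?_⟩
    simpa using hi
  · intro v hv
    have h := h4 v hv
    rw [← Equiv.sum_comp e] at h
    exact h
  · rw [← Equiv.sum_comp e] at h5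
    exact h5

/-- The staircase over a family of triangles: `n` parallelograms per triangle, same cylinders
covered, total area `(1 + 1/n)` times the total area of the triangles. -/
theorem stair_of_triangles (K : Set E3) (m : ℕ) (u0 p q r : Fin m → E3)
    (hu0 : ∀ i, ‖u0 i‖ = 1)
    (hperp : ∀ i, inner ℝ (p i) (u0 i) = 0 ∧ inner ℝ (q i) (u0 i) = 0 ∧ inner ℝ (r i) (u0 i) = 0)
    (hgram : ∀ i, 0 < gram (q i - p i) (r i - p i))
    (hcover : K ⊆ ⋃ i, {x : E3 | ∃ b ∈ convexHull ℝ {p i, q i, r i}, ∃ t : ℝ, x = b + t • u0 i})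
    (n : ℕ) (hnpos : 0 < n) :
    ∃ (u c a b : Fin m × Fin n → E3),
      (∀ j, ‖u j‖ = 1) ∧
      (∀ j, inner ℝ (c j) (u j) = 0 ∧ inner ℝ (a j) (u j) = 0 ∧ inner ℝ (b j) (u j) = 0) ∧
      (∀ j, 0 < gram (a j) (b j)) ∧
      K ⊆ ⋃ j, {x : E3 |
        ∃ s ∈ Set.Icc (0 : ℝ) 1, ∃ t ∈ Set.Icc (0 : ℝ) 1, ∃ τ : ℝ,
          x = c j + s • a j + t • b j + τ • u j} ∧
      ∑ j, Real.sqrt (gram (a j) (b j)) =
        (1 + 1 / (n : ℝ)) * ∑ i, Real.sqrt (gram (q i - p i) (r i - p i)) / 2 := by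
  have hn' : (0 : ℝ) < n := by exact_mod_cast hnpos
  have hk : ∀ k : Fin n, (0 : ℝ) < 1 - ((k : ℕ) : ℝ) / n := by
    intro k
    have : ((k : ℕ) : ℝ) / n < 1 := by
      rw [div_lt_one hn']
      exact_mod_cast k.2
    linarith
  refine ⟨fun j => u0 j.1,
    fun j => p j.1 + (((j.2 : ℕ) : ℝ) / (n : ℝ)) • (q j.1 - p j.1),
    fun j => (1 / (n : ℝ)) • (q j.1 - p j.1),
    fun j => (1 - ((j.2 : ℕ) : ℝ) / (n : ℝ)) • (r j.1 - p j.1),
    fun j => hu0 j.1, ?_, ?_, ?_, ?_⟩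
  · intro j
    obtain ⟨hp, hq, hr⟩ := hperp j.1
    refine ⟨?_, ?_, ?_⟩
    · rw [inner_add_left, inner_smul_left, inner_sub_left, hp, hq]; simp
    · rw [inner_smul_left, inner_sub_left, hp, hq]; simp
    · rw [inner_smul_left, inner_sub_left, hp, hr]; simp
  · intro j
    show 0 < gram ((1 / (n : ℝ)) • (q j.1 - p j.1)) ((1 - ((j.2 : ℕ) : ℝ) / (n : ℝ)) • (r j.1 - p j.1))
    rw [gram_smul]
    have h1 : (0 : ℝ) < (1 / (n : ℝ)) ^ 2 := by positivity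
    exact mul_pos (mul_pos h1 (pow_pos (hk j.2) 2)) (hgram j.1)
  · intro x hx
    obtain ⟨i, hi⟩ := Set.mem_iUnion.mp (hcover hx)
    obtain ⟨b0, hb0, t0, hxb⟩ := hi
    obtain ⟨α, β, hα, hβ, hαβ, hb0e⟩ := triangle_param (p i) (q i) (r i) b0 hb0
    obtain ⟨k, s, hs, t, ht, hst⟩ :=
      staircase_cover n hnpos (p i) (q i - p i) (r i - p i) α β hα hβ hαβ
    refine Set.mem_iUnion.mpr ⟨(i, k), s, hs, t, ht, t0, ?_⟩
    show x = p i + (((k : ℕ) : ℝ) / (n : ℝ)) • (q i - p i) + s • ((1 / (n : ℝ)) • (q i - p i))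
      + t • ((1 - ((k : ℕ) : ℝ) / (n : ℝ)) • (r i - p i)) + t0 • u0 i
    rw [← hst, ← hb0e]
    exact hxb
  · -- the total area
    have harea : ∀ j : Fin m × Fin n,
        Real.sqrt (gram ((1 / (n : ℝ)) • (q j.1 - p j.1))
          ((1 - ((j.2 : ℕ) : ℝ) / (n : ℝ)) • (r j.1 - p j.1))) =
        (1 / (n : ℝ)) * (1 - ((j.2 : ℕ) : ℝ) / n) *
          Real.sqrt (gram (q j.1 - p j.1) (r j.1 - p j.1)) := by
      intro j
      exact sqrt_gram_smul _ _ (by positivity) (hk j.2).le _ _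
    rw [Finset.sum_congr rfl (fun j _ => harea j), Fintype.sum_prod_type]
    have hinner : ∀ i : Fin m,
        ∑ k : Fin n, (1 / (n : ℝ)) * (1 - ((k : ℕ) : ℝ) / n) *
            Real.sqrt (gram (q i - p i) (r i - p i)) =
          (1 + 1 / (n : ℝ)) * (Real.sqrt (gram (q i - p i) (r i - p i)) / 2) := by
      intro i
      rw [← Finset.sum_mul, staircase_sum n hnpos]
      ring
    rw [Finset.sum_congr rfl (fun i _ => hinner i), ← Finset.mul_sum]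

/-- The staircase data extracted from a triangle cover of the set `K`. -/
theorem stair_data (K : Set E3) (ℓ : ℝ) (hℓ : 0 < ℓ)
    (hcov : ∃ (m : ℕ) (u p q r : Fin m → E3), (∀ i, ‖u i‖ = 1) ∧
      (∀ i, inner ℝ (p i) (u i) = 0 ∧ inner ℝ (q i) (u i) = 0 ∧ inner ℝ (r i) (u i) = 0) ∧
      (∀ i, 0 < gram (q i - p i) (r i - p i)) ∧
      K ⊆ ⋃ i, {x : E3 | ∃ b ∈ convexHull ℝ {p i, q i, r i}, ∃ t : ℝ, x = b + t • u i} ∧
      ∑ i, Real.sqrt (gram (q i - p i) (r i - p i)) / 2 ≤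
        (ℓ / 2) ^ 2 * (Real.sqrt 2 * (1 / 2 - 1 / 10 ^ 9)))
    (hge : ∀ v : E3, ‖v‖ = 1 → ENNReal.ofReal ((ℓ / 2) ^ 2 * Real.sqrt 2) ≤
      μHE[2] ((fun y : E3 => y - inner ℝ y v • v) '' K))
    (hlt : ∀ v : E3, ‖v‖ = 1 → μHE[2] ((fun y : E3 => y - inner ℝ y v • v) '' K) < ⊤) :
    ∃ (m n : ℕ) (u c a b : Fin m × Fin n → E3) (S σ A0 : ℝ),
      0 ≤ S ∧ 0 < σ ∧ 0 < A0 ∧ S + 2 * σ ≤ A0 / 2 ∧
      (∀ j, ‖u j‖ = 1) ∧
      (∀ j, inner ℝ (c j) (u j) = 0 ∧ inner ℝ (a j) (u j) = 0 ∧ inner ℝ (b j) (u j) = 0) ∧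
      (∀ j, 0 < gram (a j) (b j)) ∧
      K ⊆ ⋃ j, {x : E3 |
        ∃ s ∈ Set.Icc (0 : ℝ) 1, ∃ t ∈ Set.Icc (0 : ℝ) 1, ∃ τ : ℝ,
          x = c j + s • a j + t • b j + τ • u j} ∧
      ∑ j, Real.sqrt (gram (a j) (b j)) ≤ S + σ / 2 ∧
      (∀ v : E3, ‖v‖ = 1 →
        A0 ≤ (μHE[2] ((fun y => y - inner ℝ y v • v) '' K)).toReal) := by
  obtain ⟨m, u0, p, q, r, hu0, hperp, hgram, hcover, hsum⟩ := hcov
  obtain ⟨X, hX⟩ : ∃ X : ℝ, X = (ℓ / 2) ^ 2 * Real.sqrt 2 := ⟨_, rfl⟩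
  have hXpos : 0 < X := by rw [hX]; positivity
  obtain ⟨S, hS⟩ : ∃ S : ℝ, S = ∑ i, Real.sqrt (gram (q i - p i) (r i - p i)) / 2 := ⟨_, rfl⟩
  have hS0 : 0 ≤ S := by
    rw [hS]
    exact Finset.sum_nonneg (fun i _ => div_nonneg (Real.sqrt_nonneg _) (by norm_num))
  obtain ⟨σ, hσ⟩ : ∃ σ : ℝ, σ = X * (1 / 10 ^ 9) / 2 := ⟨_, rfl⟩
  have hσpos : 0 < σ := by rw [hσ]; positivity
  have hSX : S + 2 * σ ≤ X / 2 := by
    have : S ≤ X * (1 / 2 - 1 / 10 ^ 9) := by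
      calc S ≤ (ℓ / 2) ^ 2 * (Real.sqrt 2 * (1 / 2 - 1 / 10 ^ 9)) := by rw [hS]; exact hsum
        _ = X * (1 / 2 - 1 / 10 ^ 9) := by rw [hX]; ring
    rw [hσ]
    linarith
  -- the number of steps
  obtain ⟨n, hnpos, hSn⟩ : ∃ n : ℕ, 0 < n ∧ S / (n : ℝ) ≤ σ / 2 := by
    refine ⟨⌈2 * S / σ⌉₊ + 1, Nat.succ_pos _, ?_⟩
    have h1 : 2 * S / σ ≤ ((⌈2 * S / σ⌉₊ + 1 : ℕ) : ℝ) := by
      calc 2 * S / σ ≤ (⌈2 * S / σ⌉₊ : ℝ) := Nat.le_ceil _
        _ ≤ ((⌈2 * S / σ⌉₊ + 1 : ℕ) : ℝ) := by push_cast; linarith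
    have h2 : (0 : ℝ) < ((⌈2 * S / σ⌉₊ + 1 : ℕ) : ℝ) := by positivity
    rw [div_le_iff₀ hσpos] at h1
    rw [div_le_iff₀ h2]
    linarith
  have hn' : (0 : ℝ) < n := by exact_mod_cast hnpos
  obtain ⟨u, c, a, b, h1, h2, h3, h4, h5⟩ :=
    stair_of_triangles K m u0 p q r hu0 hperp hgram hcover n hnpos
  refine ⟨m, n, u, c, a, b, S, σ, X, hS0, hσpos, hXpos, hSX, h1, h2, h3, h4, ?_, ?_⟩
  · rw [h5, ← hS]
    have : (1 + 1 / (n : ℝ)) * S = S + S / n := by ring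
    rw [this]
    linarith
  · intro v hv
    rw [hX]
    exact (ENNReal.ofReal_le_iff_le_toReal (ne_of_lt (hlt v hv))).mp (hge v hv)

theorem part1_of_data (K : Set E3) (m n : ℕ) (u c a b : Fin m × Fin n → E3) (S σ A0 : ℝ)
    (hσ : 0 < σ) (hA0 : 0 < A0) (hSA : S + 2 * σ ≤ A0 / 2)
    (hu : ∀ j, ‖u j‖ = 1)
    (hperp : ∀ j, inner ℝ (c j) (u j) = 0 ∧ inner ℝ (a j) (u j) = 0 ∧ inner ℝ (b j) (u j) = 0)
    (hcover : K ⊆ ⋃ j, {x : E3 |
        ∃ s ∈ Set.Icc (0 : ℝ) 1, ∃ t ∈ Set.Icc (0 : ℝ) 1, ∃ τ : ℝ,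
          x = c j + s • a j + t • b j + τ • u j})
    (hsum : ∑ j, Real.sqrt (gram (a j) (b j)) ≤ S + σ / 2)
    (hproj : ∀ v : E3, ‖v‖ = 1 →
        A0 ≤ (μHE[2] ((fun y => y - inner ℝ y v • v) '' K)).toReal) :
    Part1 K (Fin m × Fin n) u c a b := by
  have harea : ∀ j, (μHE[2] {x : E3 |
        ∃ s ∈ Set.Icc (0 : ℝ) 1, ∃ t ∈ Set.Icc (0 : ℝ) 1, x = c j + s • a j + t • b j}).toReal =
      Real.sqrt (gram (a j) (b j)) := by
    intro j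
    rw [muHE_parallelogram, ENNReal.toReal_ofReal (Real.sqrt_nonneg _)]
  refine ⟨hu, hperp, hcover, ⟨σ, hσ, ?_⟩, ?_⟩
  · intro v hv
    rw [Finset.sum_congr rfl (fun j _ => harea j)]
    have := hproj v hv
    linarith
  · rw [Finset.sum_congr rfl (fun j _ => by rw [harea j])]
    calc ∑ j, Real.sqrt (gram (a j) (b j)) /
          (μHE[2] ((fun y => y - inner ℝ y (u j) • u j) '' K)).toReal
        ≤ ∑ j, Real.sqrt (gram (a j) (b j)) / A0 := by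
          apply Finset.sum_le_sum
          intro j _
          exact div_le_div_of_nonneg_left (Real.sqrt_nonneg _) hA0 (hproj (u j) (hu j))
      _ = (∑ j, Real.sqrt (gram (a j) (b j))) / A0 := by rw [Finset.sum_div]
      _ < 1 / 2 := by
          rw [div_lt_iff₀ hA0]
          linarith

theorem part2_of_data (K : Set E3) (m n : ℕ) (u c a b : Fin m × Fin n → E3) (S σ A0 : ℝ)
    (hS0 : 0 ≤ S) (hσ : 0 < σ) (hA0 : 0 < A0) (hSA : S + 2 * σ ≤ A0 / 2)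
    (hu : ∀ j, ‖u j‖ = 1)
    (hperp : ∀ j, inner ℝ (c j) (u j) = 0 ∧ inner ℝ (a j) (u j) = 0 ∧ inner ℝ (b j) (u j) = 0)
    (hgram : ∀ j, 0 < gram (a j) (b j))
    (hcover : K ⊆ ⋃ j, {x : E3 |
        ∃ s ∈ Set.Icc (0 : ℝ) 1, ∃ t ∈ Set.Icc (0 : ℝ) 1, ∃ τ : ℝ,
          x = c j + s • a j + t • b j + τ • u j})
    (hsum : ∑ j, Real.sqrt (gram (a j) (b j)) ≤ S + σ / 2)
    (hproj : ∀ v : E3, ‖v‖ = 1 →
        A0 ≤ (μHE[2] ((fun y => y - inner ℝ y v • v) '' K)).toReal) :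
    ∃ B : Fin m × Fin n → Set E3, Part2 K (Fin m × Fin n) u B := by
  obtain ⟨M, hM⟩ : ∃ M : ℝ, M = S + σ / 2 := ⟨_, rfl⟩
  have hMpos : 0 < M := by rw [hM]; linarith
  obtain ⟨η, hηdef⟩ : ∃ η : ℝ, η = min 1 (σ / (16 * M)) := ⟨_, rfl⟩
  have hη : 0 < η := by
    rw [hηdef]
    exact lt_min one_pos (div_pos hσ (by linarith))
  have hη1 : η ≤ 1 := by rw [hηdef]; exact min_le_left _ _
  have hη2 : η * M ≤ σ / 16 := by
    have : η ≤ σ / (16 * M) := by rw [hηdef]; exact min_le_right _ _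
    calc η * M ≤ σ / (16 * M) * M := by gcongr
      _ = σ / 16 := by field_simp
  have hB := fun j => exists_open_base (u j) (c j) (a j) (b j) (hu j) (hperp j).1 (hperp j).2.1
    (hperp j).2.2 (hgram j) η hη
  choose B hBbd hBopen hBsub hBarea using hB
  have hBreal : ∀ j, (μHE[2] (B j)).toReal ≤ (1 + 2 * η) ^ 2 * Real.sqrt (gram (a j) (b j)) :=
    fun j => ENNReal.toReal_le_of_le_ofReal (by positivity) (hBarea j)
  have htotal : ∑ j, (μHE[2] (B j)).toReal ≤ S + σ := by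
    calc ∑ j, (μHE[2] (B j)).toReal
        ≤ ∑ j, (1 + 2 * η) ^ 2 * Real.sqrt (gram (a j) (b j)) :=
          Finset.sum_le_sum (fun j _ => hBreal j)
      _ = (1 + 2 * η) ^ 2 * ∑ j, Real.sqrt (gram (a j) (b j)) := by rw [Finset.mul_sum]
      _ ≤ (1 + 2 * η) ^ 2 * M := by
          rw [hM]
          exact mul_le_mul_of_nonneg_left hsum (sq_nonneg _)
      _ ≤ (1 + 8 * η) * M := by
          apply mul_le_mul_of_nonneg_right _ hMpos.le
          nlinarith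
      _ ≤ S + σ := by
          rw [hM] at hη2 ⊢
          nlinarith
  refine ⟨B, hu, fun j => ⟨hBbd j, hBopen j⟩, ?_, ⟨σ, hσ, ?_⟩, ?_⟩
  · intro x hx
    obtain ⟨j, hj⟩ := Set.mem_iUnion.mp (hcover hx)
    obtain ⟨s, hs, t, ht, τ, hxe⟩ := hj
    refine Set.mem_iUnion.mpr ⟨j, c j + s • a j + t • b j, hBsub j ⟨s, hs, t, ht, rfl⟩, τ, hxe⟩
  · intro v hv
    have := hproj v hv
    linarith
  · calc ∑ j, (μHE[2] (B j)).toReal /
          (μHE[2] ((fun y => y - inner ℝ y (u j) • u j) '' K)).toReal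
        ≤ ∑ j, (μHE[2] (B j)).toReal / A0 := by
          apply Finset.sum_le_sum
          intro j _
          exact div_le_div_of_nonneg_left ENNReal.toReal_nonneg hA0 (hproj (u j) (hu j))
      _ = (∑ j, (μHE[2] (B j)).toReal) / A0 := by rw [Finset.sum_div]
      _ < 1 / 2 := by
          rw [div_lt_iff₀ hA0]
          linarith

/-- **S0327** with the three facts of package P5a (triangle cover of the regular tetrahedron and
the two bounds on its projections) as hypotheses. -/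
theorem main_of
    (w : Fin 4 → EuclideanSpace ℝ (Fin 3)) (ℓ : ℝ) (hℓ : 0 < ℓ)
    (_hw : ∀ i j, i ≠ j → dist (w i) (w j) = ℓ)
    (hcov : ∃ (m : ℕ) (u p q r : Fin m → E3), (∀ i, ‖u i‖ = 1) ∧
      (∀ i, inner ℝ (p i) (u i) = 0 ∧ inner ℝ (q i) (u i) = 0 ∧ inner ℝ (r i) (u i) = 0) ∧
      (∀ i, 0 < gram (q i - p i) (r i - p i)) ∧
      convexHull ℝ (Set.range w) ⊆
        ⋃ i, {x : E3 | ∃ b ∈ convexHull ℝ {p i, q i, r i}, ∃ t : ℝ, x = b + t • u i} ∧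
      ∑ i, Real.sqrt (gram (q i - p i) (r i - p i)) / 2 ≤
        (ℓ / 2) ^ 2 * (Real.sqrt 2 * (1 / 2 - 1 / 10 ^ 9)))
    (hge : ∀ v : E3, ‖v‖ = 1 → ENNReal.ofReal ((ℓ / 2) ^ 2 * Real.sqrt 2) ≤
      μHE[2] ((fun y : E3 => y - inner ℝ y v • v) '' convexHull ℝ (Set.range w)))
    (hlt : ∀ v : E3, ‖v‖ = 1 →
      μHE[2] ((fun y : E3 => y - inner ℝ y v • v) '' convexHull ℝ (Set.range w)) < ⊤) :
    (∃ (k : ℕ) (u c a b : Fin k → EuclideanSpace ℝ (Fin 3)),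
      (∀ i, ‖u i‖ = 1) ∧
      (∀ i, inner ℝ (c i) (u i) = 0 ∧ inner ℝ (a i) (u i) = 0 ∧ inner ℝ (b i) (u i) = 0) ∧
      convexHull ℝ (Set.range w) ⊆ ⋃ i, {x : EuclideanSpace ℝ (Fin 3) |
        ∃ s ∈ Set.Icc (0 : ℝ) 1, ∃ t ∈ Set.Icc (0 : ℝ) 1, ∃ τ : ℝ, x = c i + s • a i + t • b i + τ • u i} ∧
      (∃ δ : ℝ, 0 < δ ∧ ∀ v : EuclideanSpace ℝ (Fin 3), ‖v‖ = 1 →
        (∑ i, (μHE[2] {x : EuclideanSpace ℝ (Fin 3) |
            ∃ s ∈ Set.Icc (0 : ℝ) 1, ∃ t ∈ Set.Icc (0 : ℝ) 1, x = c i + s • a i + t • b i}).toReal) + δ ≤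
          (μHE[2] ((fun y => y - inner ℝ y v • v) '' convexHull ℝ (Set.range w))).toReal / 2) ∧
      ∑ i, (μHE[2] {x : EuclideanSpace ℝ (Fin 3) |
            ∃ s ∈ Set.Icc (0 : ℝ) 1, ∃ t ∈ Set.Icc (0 : ℝ) 1, x = c i + s • a i + t • b i}).toReal /
          (μHE[2] ((fun y => y - inner ℝ y (u i) • u i) '' convexHull ℝ (Set.range w))).toReal < 1 / 2) ∧
    (∃ (k : ℕ) (u : Fin k → EuclideanSpace ℝ (Fin 3)) (B : Fin k → Set (EuclideanSpace ℝ (Fin 3))),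
      (∀ i, ‖u i‖ = 1) ∧
      (∀ i, Bornology.IsBounded (B i) ∧ ∃ O : Set (EuclideanSpace ℝ (Fin 3)), IsOpen O ∧
        B i = O ∩ {x | inner ℝ x (u i) = 0}) ∧
      convexHull ℝ (Set.range w) ⊆
        ⋃ i, {x : EuclideanSpace ℝ (Fin 3) | ∃ y ∈ B i, ∃ τ : ℝ, x = y + τ • u i} ∧
      (∃ δ : ℝ, 0 < δ ∧ ∀ v : EuclideanSpace ℝ (Fin 3), ‖v‖ = 1 →
        (∑ i, (μHE[2] (B i)).toReal) + δ ≤
          (μHE[2] ((fun y => y - inner ℝ y v • v) '' convexHull ℝ (Set.range w))).toReal / 2) ∧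
      ∑ i, (μHE[2] (B i)).toReal /
          (μHE[2] ((fun y => y - inner ℝ y (u i) • u i) '' convexHull ℝ (Set.range w))).toReal < 1 / 2) := by
  obtain ⟨m, n, u, c, a, b, S, σ, A0, hS0, hσ, hA0, hSA, hu, hperp, hgram, hcover, hsum, hproj⟩ :=
    stair_data (convexHull ℝ (Set.range w)) ℓ hℓ hcov hge hlt
  have h1 := part1_of_data _ m n u c a b S σ A0 hσ hA0 hSA hu hperp hcover hsum hproj
  obtain ⟨B, h2⟩ :=
    part2_of_data _ m n u c a b S σ A0 hS0 hσ hA0 hSA hu hperp hgram hcover hsum hproj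
  exact ⟨⟨_, _, _, _, _, h1.reindex (Fintype.equivFin (Fin m × Fin n)).symm⟩,
    ⟨_, _, _, h2.reindex (Fintype.equivFin (Fin m × Fin n)).symm⟩⟩

end Crest.Agent.S0327.Helper34
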