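import Mathlib
import Crest.Agent.Lib.S0324.Area

/-!
Backup implementation of package P5b (row 211, S0327 main), by helper47.

From a cover of a set `K ⊆ ℝ³` by cylinders over nondegenerate triangles of small total area
(package P5a `tetra_cover`) and lower bounds for the areas of all projections of `K`
(`tetra_proj_ge`, `tetra_proj_lt_top`) we derive the two covers of S0327:
parallelogram bases (staircase subdivision of each triangle) and bounded relatively open bases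
(open thickening of the staircase parallelograms inside the plane `u^⊥`).
-/

set_option autoImplicit false
open MeasureTheory
open scoped ENNReal

namespace Crest.Agent.S0327.Helper47

open Crest.Agent.S0324

/-! ### Triangles and the staircase -/

/-- Points of a triangle in barycentric form. -/
theorem exists_coords_of_mem_triangle (P Q R z : E3)
    (hz : z ∈ convexHull ℝ ({P, Q, R} : Set E3)) :
    ∃ x y : ℝ, 0 ≤ x ∧ 0 ≤ y ∧ x + y ≤ 1 ∧ z = P + x • (Q - P) + y • (R - P) := by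
  rw [Helper57.triangle_eq] at hz
  obtain ⟨_, ⟨ξ, ⟨h0, h1, h2⟩, rfl⟩, rfl⟩ := hz
  exact ⟨ξ 0, ξ 1, h0, h1, h2, by rw [Helper57.lin2_apply, add_assoc]⟩

/-- Every point of the triangle lies in one of the `n` staircase parallelograms. -/
theorem staircase_mem (P a b : E3) {n : ℕ} (hn : 0 < n) {x y : ℝ} (hx : 0 ≤ x) (hy : 0 ≤ y)
    (hxy : x + y ≤ 1) :
    ∃ k : Fin n, ∃ s ∈ Set.Icc (0 : ℝ) 1, ∃ t ∈ Set.Icc (0 : ℝ) 1,
      P + x • a + y • b =
        (P + (((k : ℕ) : ℝ) / (n : ℝ)) • a) + s • ((1 / (n : ℝ)) • a)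
          + t • ((1 - ((k : ℕ) : ℝ) / (n : ℝ)) • b) := by
  have hn' : (0 : ℝ) < n := by exact_mod_cast hn
  set k0 : ℕ := min ⌊(n : ℝ) * x⌋₊ (n - 1) with hk0
  have hk0n : k0 < n := lt_of_le_of_lt (min_le_right _ _) (Nat.sub_lt hn one_pos)
  have hk0x : (k0 : ℝ) ≤ n * x := by
    have h1 : (k0 : ℝ) ≤ (⌊(n : ℝ) * x⌋₊ : ℝ) := by exact_mod_cast min_le_left _ _
    exact h1.trans (Nat.floor_le (by positivity))
  have hk0x' : (n : ℝ) * x ≤ k0 + 1 := by
    rcases le_total ⌊(n : ℝ) * x⌋₊ (n - 1) with h | h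
    · have h1 : k0 = ⌊(n : ℝ) * x⌋₊ := min_eq_left h
      rw [h1]
      exact (Nat.lt_floor_add_one _).le
    · have h1 : k0 = n - 1 := min_eq_right h
      rw [h1]
      have h2 : ((n - 1 : ℕ) : ℝ) + 1 = n := by
        rw [Nat.cast_sub hn]; simp
      rw [h2]
      have hx1 : x ≤ 1 := by linarith
      nlinarith
  have hpos : (0 : ℝ) < 1 - (k0 : ℝ) / n := by
    rw [sub_pos, div_lt_one hn']
    exact_mod_cast hk0n
  refine ⟨⟨k0, hk0n⟩, (n : ℝ) * x - k0, ⟨by linarith, by linarith⟩,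
    y / (1 - (k0 : ℝ) / n), ⟨by positivity, ?_⟩, ?_⟩
  · rw [div_le_one hpos]
    have h1 : (k0 : ℝ) / n ≤ x := by rw [div_le_iff₀ hn']; linarith
    linarith
  · simp only [smul_smul]
    have e1 : ((n : ℝ) * x - k0) * (1 / (n : ℝ)) = x - (k0 : ℝ) / n := by field_simp
    have e2 : y / (1 - (k0 : ℝ) / n) * (1 - (k0 : ℝ) / n) = y := div_mul_cancel₀ _ hpos.ne'
    rw [e1, e2, sub_smul]
    abel

theorem gram_smul_smul (α β : ℝ) (a b : E3) :
    gram (α • a) (β • b) = (α * β) ^ 2 * gram a b := by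
  unfold gram
  rw [norm_smul, norm_smul, real_inner_smul_left, real_inner_smul_right, Real.norm_eq_abs,
    Real.norm_eq_abs]
  have h1 : |α| ^ 2 = α ^ 2 := sq_abs α
  have h2 : |β| ^ 2 = β ^ 2 := sq_abs β
  calc (|α| * ‖a‖) ^ 2 * (|β| * ‖b‖) ^ 2 - (α * (β * inner ℝ a b)) ^ 2
      = (|α| ^ 2 * |β| ^ 2) * (‖a‖ ^ 2 * ‖b‖ ^ 2) - (α ^ 2 * β ^ 2) * (inner ℝ a b) ^ 2 := by ring
    _ = (α * β) ^ 2 * (‖a‖ ^ 2 * ‖b‖ ^ 2 - (inner ℝ a b) ^ 2) := by rw [h1, h2]; ring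

theorem sqrt_gram_smul_smul {α β : ℝ} (hα : 0 ≤ α) (hβ : 0 ≤ β) (a b : E3) :
    Real.sqrt (gram (α • a) (β • b)) = α * β * Real.sqrt (gram a b) := by
  rw [gram_smul_smul, Real.sqrt_mul (sq_nonneg _), Real.sqrt_sq (mul_nonneg hα hβ)]

theorem sum_range_cast (n : ℕ) : ∑ k ∈ Finset.range n, (k : ℝ) = n * (n - 1) / 2 := by
  induction n with
  | zero => simp
  | succ n ih => rw [Finset.sum_range_succ, ih]; push_cast; ring

/-- Total area factor of the `n` staircase strips. -/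
theorem sum_strip (n : ℕ) (hn : 0 < n) (g : ℝ) :
    ∑ k : Fin n, (1 / (n : ℝ)) * (1 - ((k : ℕ) : ℝ) / n) * g = (1 + 1 / (n : ℝ)) * (g / 2) := by
  have hn' : (n : ℝ) ≠ 0 := by positivity
  rw [Fin.sum_univ_eq_sum_range (fun k : ℕ => (1 / (n : ℝ)) * (1 - (k : ℝ) / n) * g) n]
  have h1 : ∀ k ∈ Finset.range n,
      (1 / (n : ℝ)) * (1 - (k : ℝ) / n) * g = g / n - (g / (n : ℝ) ^ 2) * k := by
    intro k _; field_simp
  rw [Finset.sum_congr rfl h1, Finset.sum_sub_distrib, ← Finset.mul_sum, sum_range_cast]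
  simp only [Finset.sum_const, Finset.card_range, nsmul_eq_mul]
  field_simp
  ring

/-- **Staircase.** A cover by cylinders over nondegenerate triangles yields, for every `ε > 0`, a
cover by cylinders over nondegenerate parallelograms whose total area exceeds the total area of
the triangles by at most `ε`. -/
theorem exists_parallelogram_cover (K : Set E3) (m : ℕ) (u p q r : Fin m → E3)
    (hu : ∀ i, ‖u i‖ = 1)
    (hperp : ∀ i, inner ℝ (p i) (u i) = 0 ∧ inner ℝ (q i) (u i) = 0 ∧ inner ℝ (r i) (u i) = 0)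
    (hgram : ∀ i, 0 < gram (q i - p i) (r i - p i))
    (hcov : K ⊆ ⋃ i, {x : E3 | ∃ b ∈ convexHull ℝ ({p i, q i, r i} : Set E3), ∃ t : ℝ,
      x = b + t • u i})
    (ε : ℝ) (hε : 0 < ε) :
    ∃ (k : ℕ) (u' c a b : Fin k → E3), (∀ j, ‖u' j‖ = 1) ∧
      (∀ j, inner ℝ (c j) (u' j) = 0 ∧ inner ℝ (a j) (u' j) = 0 ∧ inner ℝ (b j) (u' j) = 0) ∧
      (∀ j, 0 < gram (a j) (b j)) ∧
      K ⊆ ⋃ j, {x : E3 | ∃ s ∈ Set.Icc (0 : ℝ) 1, ∃ t ∈ Set.Icc (0 : ℝ) 1, ∃ τ : ℝ,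
        x = c j + s • a j + t • b j + τ • u' j} ∧
      ∑ j, Real.sqrt (gram (a j) (b j)) ≤
        ∑ i, Real.sqrt (gram (q i - p i) (r i - p i)) / 2 + ε := by
  set T : ℝ := ∑ i, Real.sqrt (gram (q i - p i) (r i - p i)) / 2 with hT
  have hT0 : 0 ≤ T := Finset.sum_nonneg fun i _ => by positivity
  set n : ℕ := ⌈T / ε⌉₊ + 1 with hn_def
  have hn : 0 < n := Nat.succ_pos _
  have hn' : (0 : ℝ) < n := by exact_mod_cast hn
  have hTn : T / n ≤ ε := by
    rw [div_le_iff₀ hn']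
    have h1 : T / ε ≤ (⌈T / ε⌉₊ : ℝ) := Nat.le_ceil _
    have h2 : (⌈T / ε⌉₊ : ℝ) ≤ n := by rw [hn_def]; push_cast; linarith
    have h3 : T / ε ≤ n := h1.trans h2
    rw [div_le_iff₀ hε] at h3
    linarith
  let e : Fin m × Fin n ≃ Fin (m * n) := finProdFinEquiv
  -- the families, as functions of the pair index
  let U : Fin m × Fin n → E3 := fun x => u x.1
  let C : Fin m × Fin n → E3 := fun x =>
    p x.1 + (((x.2 : ℕ) : ℝ) / (n : ℝ)) • (q x.1 - p x.1)
  let A : Fin m × Fin n → E3 := fun x => (1 / (n : ℝ)) • (q x.1 - p x.1)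
  let B : Fin m × Fin n → E3 := fun x => (1 - ((x.2 : ℕ) : ℝ) / (n : ℝ)) • (r x.1 - p x.1)
  have hkpos : ∀ x : Fin m × Fin n, (0 : ℝ) < 1 - ((x.2 : ℕ) : ℝ) / (n : ℝ) := by
    intro x
    rw [sub_pos, div_lt_one hn']
    exact_mod_cast x.2.2
  refine ⟨m * n, fun j => U (e.symm j), fun j => C (e.symm j), fun j => A (e.symm j),
    fun j => B (e.symm j), fun j => hu _, fun j => ?_, fun j => ?_, ?_, ?_⟩
  · obtain ⟨h1, h2, h3⟩ := hperp (e.symm j).1
    refine ⟨?_, ?_, ?_⟩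
    · show inner ℝ (p (e.symm j).1 + _ • (q (e.symm j).1 - p (e.symm j).1)) (u (e.symm j).1) = 0
      rw [inner_add_left, real_inner_smul_left, inner_sub_left, h1, h2]; simp
    · show inner ℝ (_ • (q (e.symm j).1 - p (e.symm j).1)) (u (e.symm j).1) = 0
      rw [real_inner_smul_left, inner_sub_left, h1, h2]; simp
    · show inner ℝ (_ • (r (e.symm j).1 - p (e.symm j).1)) (u (e.symm j).1) = 0
      rw [real_inner_smul_left, inner_sub_left, h1, h3]; simp
  · show 0 < gram ((1 / (n : ℝ)) • (q (e.symm j).1 - p (e.symm j).1))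
      ((1 - (((e.symm j).2 : ℕ) : ℝ) / (n : ℝ)) • (r (e.symm j).1 - p (e.symm j).1))
    rw [gram_smul_smul]
    have h1 := hkpos (e.symm j)
    have h2 : (0 : ℝ) < 1 / (n : ℝ) := by positivity
    exact mul_pos (pow_pos (mul_pos h2 h1) 2) (hgram _)
  · intro x hx
    obtain ⟨i, z, hz, t, rfl⟩ := Set.mem_iUnion.1 (hcov hx)
    obtain ⟨x', y', hx', hy', hxy', rfl⟩ := exists_coords_of_mem_triangle _ _ _ _ hz
    obtain ⟨k, s, hs, t', ht', hst⟩ :=
      staircase_mem (p i) (q i - p i) (r i - p i) hn hx' hy' hxy'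
    refine Set.mem_iUnion.2 ⟨e (i, k), s, hs, t', ht', t, ?_⟩
    have hj : e.symm (e (i, k)) = (i, k) := e.symm_apply_apply _
    show p i + x' • (q i - p i) + y' • (r i - p i) + t • u i
      = C (e.symm (e (i, k))) + s • A (e.symm (e (i, k))) + t' • B (e.symm (e (i, k)))
        + t • U (e.symm (e (i, k)))
    rw [hj, hst]
  · have h1 : ∑ j, Real.sqrt (gram (A (e.symm j)) (B (e.symm j)))
        = ∑ x : Fin m × Fin n, Real.sqrt (gram (A x) (B x)) :=
      Equiv.sum_comp e.symm (fun x => Real.sqrt (gram (A x) (B x)))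
    have h2 : ∀ x : Fin m × Fin n, Real.sqrt (gram (A x) (B x))
        = (1 / (n : ℝ)) * (1 - ((x.2 : ℕ) : ℝ) / n)
          * Real.sqrt (gram (q x.1 - p x.1) (r x.1 - p x.1)) := by
      intro x
      exact sqrt_gram_smul_smul (by positivity) (hkpos x).le _ _
    have h3 : ∑ x : Fin m × Fin n, Real.sqrt (gram (A x) (B x))
        = (1 + 1 / (n : ℝ)) * T := by
      rw [Fintype.sum_prod_type, hT, Finset.mul_sum]
      refine Finset.sum_congr rfl fun i _ => ?_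
      rw [← sum_strip n hn]
      exact Finset.sum_congr rfl fun k _ => h2 (i, k)
    show ∑ j, Real.sqrt (gram (A (e.symm j)) (B (e.symm j))) ≤ T + ε
    rw [h1, h3]
    have h4 : (1 + 1 / (n : ℝ)) * T = T + T / n := by field_simp
    rw [h4]
    linarith

/-! ### Open thickening of a parallelogram inside the plane `u^⊥` -/

/-- **Open base.** A nondegenerate parallelogram in the plane `u^⊥` is contained in a bounded
relatively open subset of that plane whose area is at most `(1 + 2η)²` times its own. -/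
theorem exists_open_base (u c a b : E3) (hu : ‖u‖ = 1) (hc : inner ℝ c u = 0)
    (ha : inner ℝ a u = 0) (hb : inner ℝ b u = 0) (hg : 0 < gram a b) (η : ℝ) (hη : 0 < η) :
    ∃ B : Set E3, Bornology.IsBounded B ∧
      (∃ O : Set E3, IsOpen O ∧ B = O ∩ {x | inner ℝ x u = 0}) ∧
      {x : E3 | ∃ s ∈ Set.Icc (0 : ℝ) 1, ∃ t ∈ Set.Icc (0 : ℝ) 1, x = c + s • a + t • b} ⊆ B ∧
      μHE[2] B ≤ ENNReal.ofReal ((1 + 2 * η) ^ 2 * Real.sqrt (gram a b)) := by
  have huu : inner ℝ u u = 1 := by rw [real_inner_self_eq_norm_sq, hu]; norm_num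
  have hua : inner ℝ u a = 0 := by rw [real_inner_comm]; exact ha
  have hub : inner ℝ u b = 0 := by rw [real_inner_comm]; exact hb
  have hba : inner ℝ b a = inner ℝ a b := real_inner_comm _ _
  have hg' : ‖a‖ ^ 2 * ‖b‖ ^ 2 - (inner ℝ a b) ^ 2 ≠ 0 := by
    have := hg; unfold gram at this; exact this.ne'
  -- `a, b, u` are linearly independent
  have hli : LinearIndependent ℝ ![a, b, u] := by
    rw [Fintype.linearIndependent_iff]
    intro g hg0
    rw [Fin.sum_univ_three] at hg0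
    simp only [Matrix.cons_val_zero, Matrix.cons_val_one, Matrix.cons_val_two,
      Matrix.head_cons, Matrix.tail_cons] at hg0
    have h2 : g 2 = 0 := by
      have h := congrArg (fun z => inner ℝ z u) hg0
      simp only [inner_add_left, real_inner_smul_left, ha, hb, huu, inner_zero_left] at h
      linarith
    have hA : g 0 * ‖a‖ ^ 2 + g 1 * inner ℝ a b = 0 := by
      have h := congrArg (fun z => inner ℝ z a) hg0
      simp only [inner_add_left, real_inner_smul_left, real_inner_self_eq_norm_sq, hua, hba,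
        inner_zero_left, h2] at h
      linarith
    have hB : g 0 * inner ℝ a b + g 1 * ‖b‖ ^ 2 = 0 := by
      have h := congrArg (fun z => inner ℝ z b) hg0
      simp only [inner_add_left, real_inner_smul_left, real_inner_self_eq_norm_sq, hub,
        inner_zero_left, h2] at h
      linarith
    have h0 : g 0 = 0 := by
      have h : g 0 * (‖a‖ ^ 2 * ‖b‖ ^ 2 - (inner ℝ a b) ^ 2) = 0 := by
        linear_combination (‖b‖ ^ 2) * hA - (inner ℝ a b) * hB
      exact (mul_eq_zero.1 h).resolve_right hg'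
    have h1 : g 1 = 0 := by
      have h : g 1 * (‖a‖ ^ 2 * ‖b‖ ^ 2 - (inner ℝ a b) ^ 2) = 0 := by
        linear_combination (‖a‖ ^ 2) * hB - (inner ℝ a b) * hA
      exact (mul_eq_zero.1 h).resolve_right hg'
    intro i
    fin_cases i
    · exact h0
    · exact h1
    · exact h2
  let bas : Module.Basis (Fin 3) ℝ E3 := basisOfLinearIndependentOfCardEqFinrank hli (by simp)
  have hbas : ⇑bas = ![a, b, u] := coe_basisOfLinearIndependentOfCardEqFinrank hli _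
  have hb0 : bas 0 = a := by rw [hbas]; rfl
  have hb1 : bas 1 = b := by rw [hbas]; rfl
  have hb2 : bas 2 = u := by rw [hbas]; rfl
  have hdec : ∀ z : E3, z = bas.repr z 0 • a + bas.repr z 1 • b + bas.repr z 2 • u := by
    intro z
    have h := bas.sum_repr z
    rw [Fin.sum_univ_three, hb0, hb1, hb2] at h
    exact h.symm
  have hra : bas.repr a = Finsupp.single 0 1 := by
    have h := bas.repr_self 0
    rwa [hb0] at h
  have hrb : bas.repr b = Finsupp.single 1 1 := by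
    have h := bas.repr_self 1
    rwa [hb1] at h
  have hcont : ∀ i : Fin 3, Continuous fun z : E3 => bas.repr (z - c) i := by
    intro i
    have h : Continuous (bas.coord i) := LinearMap.continuous_of_finiteDimensional _
    exact h.comp (continuous_id.sub continuous_const)
  set O : Set E3 := {z | bas.repr (z - c) 0 ∈ Set.Ioo (-η) (1 + η) ∧
    bas.repr (z - c) 1 ∈ Set.Ioo (-η) (1 + η)} with hO_def
  have hO : IsOpen O :=
    (isOpen_Ioo.preimage (hcont 0)).inter (isOpen_Ioo.preimage (hcont 1))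
  have hkey : ∀ z : E3, inner ℝ z u = 0 →
      z = c + bas.repr (z - c) 0 • a + bas.repr (z - c) 1 • b := by
    intro z hz
    have h1 := hdec (z - c)
    have h2 : bas.repr (z - c) 2 = 0 := by
      have h := congrArg (fun y => inner ℝ y u) h1
      simp only [inner_sub_left, inner_add_left, real_inner_smul_left, hz, hc, ha, hb, huu] at h
      linarith
    rw [h2, zero_smul, add_zero] at h1
    rw [add_assoc, ← h1]
    abel
  refine ⟨O ∩ {x | inner ℝ x u = 0}, ?_, ⟨O, hO, rfl⟩, ?_, ?_⟩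
  · -- bounded
    rw [isBounded_iff_forall_norm_le]
    refine ⟨‖c‖ + (1 + η) * ‖a‖ + (1 + η) * ‖b‖, ?_⟩
    rintro z ⟨⟨⟨h0l, h0r⟩, ⟨h1l, h1r⟩⟩, hz⟩
    have hz' : inner ℝ z u = 0 := hz
    rw [hkey z hz']
    have e0 : |bas.repr (z - c) 0| ≤ 1 + η := by rw [abs_le]; constructor <;> linarith
    have e1 : |bas.repr (z - c) 1| ≤ 1 + η := by rw [abs_le]; constructor <;> linarith
    calc ‖c + bas.repr (z - c) 0 • a + bas.repr (z - c) 1 • b‖
        ≤ ‖c‖ + ‖bas.repr (z - c) 0 • a‖ + ‖bas.repr (z - c) 1 • b‖ := norm_add₃_le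
      _ = ‖c‖ + |bas.repr (z - c) 0| * ‖a‖ + |bas.repr (z - c) 1| * ‖b‖ := by
        rw [norm_smul, norm_smul, Real.norm_eq_abs, Real.norm_eq_abs]
      _ ≤ ‖c‖ + (1 + η) * ‖a‖ + (1 + η) * ‖b‖ := by
        have := mul_le_mul_of_nonneg_right e0 (norm_nonneg a)
        have := mul_le_mul_of_nonneg_right e1 (norm_nonneg b)
        linarith
  · -- contains the closed parallelogram
    rintro z ⟨s, hs, t, ht, rfl⟩
    have hsub : c + s • a + t • b - c = s • a + t • b := by abel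
    have hr0 : bas.repr (c + s • a + t • b - c) 0 = s := by
      rw [hsub, map_add, map_smul, map_smul, hra, hrb]
      simp
    have hr1 : bas.repr (c + s • a + t • b - c) 1 = t := by
      rw [hsub, map_add, map_smul, map_smul, hra, hrb]
      simp
    refine ⟨⟨?_, ?_⟩, ?_⟩
    · rw [hr0]; exact ⟨by linarith [hs.1], by linarith [hs.2]⟩
    · rw [hr1]; exact ⟨by linarith [ht.1], by linarith [ht.2]⟩
    · show inner ℝ (c + s • a + t • b) u = 0
      rw [inner_add_left, inner_add_left, real_inner_smul_left, real_inner_smul_left, hc, ha, hb]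
      simp
  · -- area
    have hη1 : (0 : ℝ) < 1 + 2 * η := by linarith
    have hsubset : O ∩ {x | inner ℝ x u = 0} ⊆
        {x : E3 | ∃ s ∈ Set.Icc (0 : ℝ) 1, ∃ t ∈ Set.Icc (0 : ℝ) 1,
          x = (c - η • a - η • b) + s • ((1 + 2 * η) • a) + t • ((1 + 2 * η) • b)} := by
      rintro z ⟨⟨⟨h0l, h0r⟩, ⟨h1l, h1r⟩⟩, hz⟩
      have hz' : inner ℝ z u = 0 := hz
      refine ⟨(bas.repr (z - c) 0 + η) / (1 + 2 * η), ⟨by apply div_nonneg <;> linarith, ?_⟩,
        (bas.repr (z - c) 1 + η) / (1 + 2 * η), ⟨by apply div_nonneg <;> linarith, ?_⟩, ?_⟩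
      · rw [div_le_one hη1]; linarith
      · rw [div_le_one hη1]; linarith
      · conv_lhs => rw [hkey z hz']
        simp only [smul_smul]
        rw [div_mul_cancel₀ _ hη1.ne', div_mul_cancel₀ _ hη1.ne', add_smul, add_smul]
        abel
    refine (measure_mono hsubset).trans ?_
    rw [muHE_parallelogram, sqrt_gram_smul_smul hη1.le hη1.le]
    apply le_of_eq
    congr 1
    ring

/-! ### Assembly -/

/-- The two numerical conclusions, for a nonnegative family of base areas of small total. -/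
theorem final_bounds (K : Set E3) {A0 S0 : ℝ} (hA0 : 0 < A0) (hS : S0 < A0 / 2)
    (hM : ∀ v : E3, ‖v‖ = 1 →
      A0 ≤ (μHE[2] ((fun y : E3 => y - inner ℝ y v • v) '' K)).toReal)
    {k : ℕ} (u : Fin k → E3) (hu : ∀ i, ‖u i‖ = 1) (ar : Fin k → ℝ) (har : ∀ i, 0 ≤ ar i)
    (hsum : ∑ i, ar i ≤ S0 + (A0 / 2 - S0) / 2) :
    (∃ δ : ℝ, 0 < δ ∧ ∀ v : E3, ‖v‖ = 1 →
        (∑ i, ar i) + δ ≤ (μHE[2] ((fun y : E3 => y - inner ℝ y v • v) '' K)).toReal / 2) ∧
      ∑ i, ar i / (μHE[2] ((fun y : E3 => y - inner ℝ y (u i) • u i) '' K)).toReal < 1 / 2 := by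
  refine ⟨⟨(A0 / 2 - S0) / 2, by linarith, fun v hv => ?_⟩, ?_⟩
  · have := hM v hv
    linarith
  · have h1 : ∀ i, ar i / (μHE[2] ((fun y : E3 => y - inner ℝ y (u i) • u i) '' K)).toReal
        ≤ ar i / A0 :=
      fun i => div_le_div_of_nonneg_left (har i) hA0 (hM (u i) (hu i))
    calc ∑ i, ar i / (μHE[2] ((fun y : E3 => y - inner ℝ y (u i) • u i) '' K)).toReal
        ≤ ∑ i, ar i / A0 := Finset.sum_le_sum fun i _ => h1 i
      _ = (∑ i, ar i) / A0 := (Finset.sum_div _ _ _).symm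
      _ < 1 / 2 := by rw [div_lt_iff₀ hA0]; linarith

/-- General form of S0327: a set `K ⊆ ℝ³` covered by cylinders over nondegenerate triangles of
total area `≤ S0`, all of whose projections have finite area `≥ A0 > 2 S0`, has both covers. -/
theorem covers_of_triangles (K : Set E3) (A0 S0 : ℝ) (hS : S0 < A0 / 2)
    (hge : ∀ v : E3, ‖v‖ = 1 →
      ENNReal.ofReal A0 ≤ μHE[2] ((fun y : E3 => y - inner ℝ y v • v) '' K))
    (hlt : ∀ v : E3, ‖v‖ = 1 → μHE[2] ((fun y : E3 => y - inner ℝ y v • v) '' K) < ⊤)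
    (m : ℕ) (u p q r : Fin m → E3) (hu : ∀ i, ‖u i‖ = 1)
    (hperp : ∀ i, inner ℝ (p i) (u i) = 0 ∧ inner ℝ (q i) (u i) = 0 ∧ inner ℝ (r i) (u i) = 0)
    (hgram : ∀ i, 0 < gram (q i - p i) (r i - p i))
    (hcov : K ⊆ ⋃ i, {x : E3 | ∃ b ∈ convexHull ℝ ({p i, q i, r i} : Set E3), ∃ t : ℝ,
      x = b + t • u i})
    (hsum : ∑ i, Real.sqrt (gram (q i - p i) (r i - p i)) / 2 ≤ S0) :
    (∃ (k : ℕ) (u c a b : Fin k → E3),
      (∀ i, ‖u i‖ = 1) ∧
      (∀ i, inner ℝ (c i) (u i) = 0 ∧ inner ℝ (a i) (u i) = 0 ∧ inner ℝ (b i) (u i) = 0) ∧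
      K ⊆ ⋃ i, {x : E3 |
        ∃ s ∈ Set.Icc (0 : ℝ) 1, ∃ t ∈ Set.Icc (0 : ℝ) 1, ∃ τ : ℝ,
          x = c i + s • a i + t • b i + τ • u i} ∧
      (∃ δ : ℝ, 0 < δ ∧ ∀ v : E3, ‖v‖ = 1 →
        (∑ i, (μHE[2] {x : E3 |
            ∃ s ∈ Set.Icc (0 : ℝ) 1, ∃ t ∈ Set.Icc (0 : ℝ) 1, x = c i + s • a i + t • b i}).toReal)
          + δ ≤ (μHE[2] ((fun y => y - inner ℝ y v • v) '' K)).toReal / 2) ∧
      ∑ i, (μHE[2] {x : E3 |
            ∃ s ∈ Set.Icc (0 : ℝ) 1, ∃ t ∈ Set.Icc (0 : ℝ) 1, x = c i + s • a i + t • b i}).toReal /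
          (μHE[2] ((fun y => y - inner ℝ y (u i) • u i) '' K)).toReal < 1 / 2) ∧
    (∃ (k : ℕ) (u : Fin k → E3) (B : Fin k → Set E3),
      (∀ i, ‖u i‖ = 1) ∧
      (∀ i, Bornology.IsBounded (B i) ∧ ∃ O : Set E3, IsOpen O ∧
        B i = O ∩ {x | inner ℝ x (u i) = 0}) ∧
      K ⊆ ⋃ i, {x : E3 | ∃ y ∈ B i, ∃ τ : ℝ, x = y + τ • u i} ∧
      (∃ δ : ℝ, 0 < δ ∧ ∀ v : E3, ‖v‖ = 1 →
        (∑ i, (μHE[2] (B i)).toReal) + δ ≤
          (μHE[2] ((fun y => y - inner ℝ y v • v) '' K)).toReal / 2) ∧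
      ∑ i, (μHE[2] (B i)).toReal /
          (μHE[2] ((fun y => y - inner ℝ y (u i) • u i) '' K)).toReal < 1 / 2) := by
  have hT0 : 0 ≤ ∑ i, Real.sqrt (gram (q i - p i) (r i - p i)) / 2 :=
    Finset.sum_nonneg fun i _ => by positivity
  have hS0 : 0 ≤ S0 := hT0.trans hsum
  have hA0 : 0 < A0 := by linarith
  have hΔ : 0 < A0 / 2 - S0 := by linarith
  have hM : ∀ v : E3, ‖v‖ = 1 →
      A0 ≤ (μHE[2] ((fun y : E3 => y - inner ℝ y v • v) '' K)).toReal :=
    fun v hv => (ENNReal.ofReal_le_iff_le_toReal (hlt v hv).ne).1 (hge v hv)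
  constructor
  · -- parallelogram bases
    obtain ⟨k, u', c, a, b, hu', hperp', -, hcov', hsum'⟩ :=
      exists_parallelogram_cover K m u p q r hu hperp hgram hcov ((A0 / 2 - S0) / 2)
        (by positivity)
    refine ⟨k, u', c, a, b, hu', hperp', hcov', ?_⟩
    have har : ∀ i, (μHE[2] {x : E3 |
        ∃ s ∈ Set.Icc (0 : ℝ) 1, ∃ t ∈ Set.Icc (0 : ℝ) 1, x = c i + s • a i + t • b i}).toReal
          = Real.sqrt (gram (a i) (b i)) := fun i => by
      rw [muHE_parallelogram, ENNReal.toReal_ofReal (Real.sqrt_nonneg _)]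
    exact final_bounds K hA0 hS hM u' hu'
      (fun i => (μHE[2] {x : E3 |
        ∃ s ∈ Set.Icc (0 : ℝ) 1, ∃ t ∈ Set.Icc (0 : ℝ) 1, x = c i + s • a i + t • b i}).toReal)
      (fun i => ENNReal.toReal_nonneg)
      (by
        simp only [har]
        linarith)
  · -- bounded relatively open bases
    obtain ⟨k, u', c, a, b, hu', hperp', hgram', hcov', hsum'⟩ :=
      exists_parallelogram_cover K m u p q r hu hperp hgram hcov ((A0 / 2 - S0) / 4)
        (by positivity)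
    set W : ℝ := S0 + (A0 / 2 - S0) / 4 with hW_def
    have hW : ∑ j, Real.sqrt (gram (a j) (b j)) ≤ W := by rw [hW_def]; linarith
    have hW0 : 0 ≤ W := by rw [hW_def]; linarith
    set η : ℝ := min 1 ((A0 / 2 - S0) / (32 * (W + 1))) with hη_def
    have hη : 0 < η := lt_min one_pos (by positivity)
    have hη1 : η ≤ 1 := min_le_left _ _
    have hη2 : η * (32 * (W + 1)) ≤ A0 / 2 - S0 := by
      have h : η ≤ (A0 / 2 - S0) / (32 * (W + 1)) := min_le_right _ _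
      rwa [le_div_iff₀ (by positivity)] at h
    choose B hBbdd hBopen hBsub hBarea using fun j =>
      exists_open_base (u' j) (c j) (a j) (b j) (hu' j) (hperp' j).1 (hperp' j).2.1
        (hperp' j).2.2 (hgram' j) η hη
    refine ⟨k, u', B, hu', fun i => ⟨hBbdd i, hBopen i⟩, ?_, ?_⟩
    · intro x hx
      obtain ⟨j, s, hs, t, ht, τ, rfl⟩ := Set.mem_iUnion.1 (hcov' hx)
      exact Set.mem_iUnion.2 ⟨j, c j + s • a j + t • b j, hBsub j ⟨s, hs, t, ht, rfl⟩, τ, rfl⟩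
    · refine final_bounds K hA0 hS hM u' hu' (fun i => (μHE[2] (B i)).toReal)
        (fun i => ENNReal.toReal_nonneg) ?_
      have h1 : ∀ i, (μHE[2] (B i)).toReal ≤ (1 + 2 * η) ^ 2 * Real.sqrt (gram (a i) (b i)) :=
        fun i => ENNReal.toReal_le_of_le_ofReal (by positivity) (hBarea i)
      have h2 : ∑ i, (μHE[2] (B i)).toReal ≤ (1 + 2 * η) ^ 2 * W := by
        calc ∑ i, (μHE[2] (B i)).toReal
            ≤ ∑ i, (1 + 2 * η) ^ 2 * Real.sqrt (gram (a i) (b i)) :=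
              Finset.sum_le_sum fun i _ => h1 i
          _ = (1 + 2 * η) ^ 2 * ∑ i, Real.sqrt (gram (a i) (b i)) := (Finset.mul_sum _ _ _).symm
          _ ≤ (1 + 2 * η) ^ 2 * W := mul_le_mul_of_nonneg_left hW (by positivity)
      have h3 : (1 + 2 * η) ^ 2 * W ≤ W + (A0 / 2 - S0) / 4 := by
        have h4 : η ^ 2 ≤ η := by nlinarith
        have h5 : (1 + 2 * η) ^ 2 ≤ 1 + 8 * η := by nlinarith
        have h6 : (1 + 2 * η) ^ 2 * W ≤ (1 + 8 * η) * W := mul_le_mul_of_nonneg_right h5 hW0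
        have h7 : η * W ≤ η * (W + 1) := mul_le_mul_of_nonneg_left (by linarith) hη.le
        nlinarith
      show ∑ i, (μHE[2] (B i)).toReal ≤ S0 + (A0 / 2 - S0) / 2
      linarith [hW_def]

/-- **Backup of P5b.** The statement of S0327 from the three P5a facts (`tetra_cover`,
`tetra_proj_ge`, `tetra_proj_lt_top`, given here as hypotheses for the tetrahedron `w`). -/
theorem main_of (w : Fin 4 → EuclideanSpace ℝ (Fin 3)) (ℓ : ℝ) (hℓ : 0 < ℓ)
    (hcover : ∃ (m : ℕ) (u p q r : Fin m → E3), (∀ i, ‖u i‖ = 1) ∧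
      (∀ i, inner ℝ (p i) (u i) = 0 ∧ inner ℝ (q i) (u i) = 0 ∧ inner ℝ (r i) (u i) = 0) ∧
      (∀ i, 0 < gram (q i - p i) (r i - p i)) ∧
      convexHull ℝ (Set.range w) ⊆ ⋃ i, {x : E3 | ∃ b ∈ convexHull ℝ {p i, q i, r i}, ∃ t : ℝ,
        x = b + t • u i} ∧
      ∑ i, Real.sqrt (gram (q i - p i) (r i - p i)) / 2 ≤
        (ℓ / 2) ^ 2 * (Real.sqrt 2 * (1 / 2 - 1 / 10 ^ 9)))
    (hge : ∀ v : E3, ‖v‖ = 1 → ENNReal.ofReal ((ℓ / 2) ^ 2 * Real.sqrt 2) ≤
      μHE[2] ((fun y : E3 => y - inner ℝ y v • v) '' convexHull ℝ (Set.range w)))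
    (hlt : ∀ v : E3, ‖v‖ = 1 →
      μHE[2] ((fun y : E3 => y - inner ℝ y v • v) '' convexHull ℝ (Set.range w)) < ⊤) :
    (∃ (k : ℕ) (u c a b : Fin k → EuclideanSpace ℝ (Fin 3)),
      (∀ i, ‖u i‖ = 1) ∧
      (∀ i, inner ℝ (c i) (u i) = 0 ∧ inner ℝ (a i) (u i) = 0 ∧ inner ℝ (b i) (u i) = 0) ∧
      convexHull ℝ (Set.range w) ⊆ ⋃ i, {x : EuclideanSpace ℝ (Fin 3) |
        ∃ s ∈ Set.Icc (0 : ℝ) 1, ∃ t ∈ Set.Icc (0 : ℝ) 1, ∃ τ : ℝ, x = c i + s • a i + t • b i + τ • u i} ∧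
      (∃ δ : ℝ, 0 < δ ∧ ∀ v : EuclideanSpace ℝ (Fin 3), ‖v‖ = 1 →
        (∑ i, (μHE[2] {x : EuclideanSpace ℝ (Fin 3) |
            ∃ s ∈ Set.Icc (0 : ℝ) 1, ∃ t ∈ Set.Icc (0 : ℝ) 1, x = c i + s • a i + t • b i}).toReal) + δ ≤
          (μHE[2] ((fun y => y - inner ℝ y v • v) '' convexHull ℝ (Set.range w))).toReal / 2) ∧
      ∑ i, (μHE[2] {x : EuclideanSpace ℝ (Fin 3) |
            ∃ s ∈ Set.Icc (0 : ℝ) 1, ∃ t ∈ Set.Icc (0 : ℝ) 1, x = c i + s • a i + t • b i}).toReal /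
          (μHE[2] ((fun y => y - inner ℝ y (u i) • u i) '' convexHull ℝ (Set.range w))).toReal < 1 / 2) ∧
    (∃ (k : ℕ) (u : Fin k → EuclideanSpace ℝ (Fin 3)) (B : Fin k → Set (EuclideanSpace ℝ (Fin 3))),
      (∀ i, ‖u i‖ = 1) ∧
      (∀ i, Bornology.IsBounded (B i) ∧ ∃ O : Set (EuclideanSpace ℝ (Fin 3)), IsOpen O ∧
        B i = O ∩ {x | inner ℝ x (u i) = 0}) ∧
      convexHull ℝ (Set.range w) ⊆
        ⋃ i, {x : EuclideanSpace ℝ (Fin 3) | ∃ y ∈ B i, ∃ τ : ℝ, x = y + τ • u i} ∧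
      (∃ δ : ℝ, 0 < δ ∧ ∀ v : EuclideanSpace ℝ (Fin 3), ‖v‖ = 1 →
        (∑ i, (μHE[2] (B i)).toReal) + δ ≤
          (μHE[2] ((fun y => y - inner ℝ y v • v) '' convexHull ℝ (Set.range w))).toReal / 2) ∧
      ∑ i, (μHE[2] (B i)).toReal /
          (μHE[2] ((fun y => y - inner ℝ y (u i) • u i) '' convexHull ℝ (Set.range w))).toReal < 1 / 2) := by
  obtain ⟨m, u, p, q, r, hu, hperp, hgram, hcov, hsum⟩ := hcover
  have hℓ2 : 0 < (ℓ / 2) ^ 2 := by positivity
  have hsqrt : 0 < Real.sqrt 2 := Real.sqrt_pos.mpr (by norm_num)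
  have hS : (ℓ / 2) ^ 2 * (Real.sqrt 2 * (1 / 2 - 1 / 10 ^ 9)) < (ℓ / 2) ^ 2 * Real.sqrt 2 / 2 := by
    have h1 : 0 < (ℓ / 2) ^ 2 * Real.sqrt 2 := mul_pos hℓ2 hsqrt
    nlinarith
  exact covers_of_triangles (convexHull ℝ (Set.range w)) ((ℓ / 2) ^ 2 * Real.sqrt 2)
    ((ℓ / 2) ^ 2 * (Real.sqrt 2 * (1 / 2 - 1 / 10 ^ 9))) hS hge hlt m u p q r hu hperp hgram hcov hsum

end Crest.Agent.S0327.Helper47
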