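import Mathlib
import Crest.Agent.Lib.S0324.Area

/-!
# Row 211, package P5a (helper93): regular tetrahedra are similar to `Kstd`

Every regular tetrahedron of edge `ℓ` in `ℝ³` is the image of the standard tetrahedron `Kstd`
(edge `2`) under a similarity `x ↦ M x + b` with `⟪M x, M y⟫ = (ℓ/2)² ⟪x, y⟫`.  A cylinder cover
of `Kstd` and projection bounds for `Kstd` are transported along this similarity.  The final
theorems here (`h93_tetra_cover_of`, `h93_tetra_proj_ge_of`, `h93_tetra_proj_lt_top_of`) take the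
facts about `Kstd` (packages P2, P3 of row 211) as hypotheses; `Crest.Agent.Lib.S0327.Similar`
instantiates them.
-/

set_option autoImplicit false
open MeasureTheory
open scoped ENNReal
open Crest.Agent.S0324

namespace Crest.Agent.S0327

/-- The linear map sending `k₁ - k₀, k₂ - k₀, k₃ - k₀` (edge vectors of `Kstd`) to `e1, e2, e3`. -/
noncomputable def h93M (e1 e2 e3 : E3) : E3 →ₗ[ℝ] E3 where
  toFun x := (-(x 0) / 2 - Real.sqrt 2 * x 2 / 4) • e1 + (x 1 / 2 + Real.sqrt 2 * x 2 / 4) • e2 +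
    (-(x 1) / 2 + Real.sqrt 2 * x 2 / 4) • e3
  map_add' x y := by
    simp only [PiLp.add_apply]
    module
  map_smul' c x := by
    simp only [PiLp.smul_apply, smul_eq_mul, RingHom.id_apply]
    module

theorem h93M_apply (e1 e2 e3 x : E3) :
    h93M e1 e2 e3 x = (-(x 0) / 2 - Real.sqrt 2 * x 2 / 4) • e1 +
      (x 1 / 2 + Real.sqrt 2 * x 2 / 4) • e2 + (-(x 1) / 2 + Real.sqrt 2 * x 2 / 4) • e3 := rfl

theorem h93_inner_coord (x y : E3) : inner ℝ x y = x 0 * y 0 + x 1 * y 1 + x 2 * y 2 := by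
  simp [PiLp.inner_apply, Fin.sum_univ_three]
  ring

theorem h93M_inner (e1 e2 e3 : E3) (l : ℝ)
    (h11 : inner ℝ e1 e1 = l ^ 2) (h22 : inner ℝ e2 e2 = l ^ 2) (h33 : inner ℝ e3 e3 = l ^ 2)
    (h12 : inner ℝ e1 e2 = l ^ 2 / 2) (h13 : inner ℝ e1 e3 = l ^ 2 / 2)
    (h23 : inner ℝ e2 e3 = l ^ 2 / 2) (x y : E3) :
    inner ℝ (h93M e1 e2 e3 x) (h93M e1 e2 e3 y) = (l / 2) ^ 2 * inner ℝ x y := by
  have h21 : inner ℝ e2 e1 = l ^ 2 / 2 := by rw [real_inner_comm]; exact h12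
  have h31 : inner ℝ e3 e1 = l ^ 2 / 2 := by rw [real_inner_comm]; exact h13
  have h32 : inner ℝ e3 e2 = l ^ 2 / 2 := by rw [real_inner_comm]; exact h23
  have hs : Real.sqrt 2 ^ 2 = 2 := Real.sq_sqrt (by norm_num)
  rw [h93M_apply, h93M_apply, h93_inner_coord x y]
  simp only [inner_add_left, inner_add_right, inner_smul_left, inner_smul_right, h11, h22, h33,
    h12, h13, h23, h21, h31, h32, RCLike.conj_to_real]
  linear_combination (l ^ 2 * x 2 * y 2 / 8) * hs

theorem h93_gram_diag (p q : E3) (l : ℝ) (h : dist p q = l) : inner ℝ (p - q) (p - q) = l ^ 2 := by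
  rw [real_inner_self_eq_norm_sq, ← dist_eq_norm, h]

theorem h93_gram_off (p q o : E3) (l : ℝ) (hp : dist p o = l) (hq : dist q o = l)
    (hpq : dist p q = l) : inner ℝ (p - o) (q - o) = l ^ 2 / 2 := by
  have h := norm_sub_sq_real (p - o) (q - o)
  rw [sub_sub_sub_cancel_right, ← dist_eq_norm, ← dist_eq_norm, ← dist_eq_norm, hp, hq, hpq] at h
  linarith

theorem h93_range_fin4 (w : Fin 4 → E3) : Set.range w = {w 0, w 1, w 2, w 3} := by
  ext x
  simp only [Set.mem_range, Set.mem_insert_iff, Set.mem_singleton_iff]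
  constructor
  · rintro ⟨i, rfl⟩
    fin_cases i <;> simp
  · rintro (rfl | rfl | rfl | rfl) <;> exact ⟨_, rfl⟩

/-- A regular tetrahedron of edge `ℓ` is the image of `Kstd` under a similarity of ratio `ℓ/2`. -/
theorem h93_exists_similarity (w : Fin 4 → E3) (ℓ : ℝ)
    (hw : ∀ i j, i ≠ j → dist (w i) (w j) = ℓ) :
    ∃ (M : E3 →ₗ[ℝ] E3) (b : E3), (∀ x y, inner ℝ (M x) (M y) = (ℓ / 2) ^ 2 * inner ℝ x y) ∧
      (fun x => M x + b) '' Kstd = convexHull ℝ (Set.range w) := by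
  refine ⟨h93M (w 1 - w 0) (w 2 - w 0) (w 3 - w 0), w 0 + (1 / 2 : ℝ) • (w 1 - w 0), ?_, ?_⟩
  · apply h93M_inner
    · exact h93_gram_diag _ _ _ (hw 1 0 (by decide))
    · exact h93_gram_diag _ _ _ (hw 2 0 (by decide))
    · exact h93_gram_diag _ _ _ (hw 3 0 (by decide))
    · exact h93_gram_off _ _ _ _ (hw 1 0 (by decide)) (hw 2 0 (by decide)) (hw 1 2 (by decide))
    · exact h93_gram_off _ _ _ _ (hw 1 0 (by decide)) (hw 3 0 (by decide)) (hw 1 3 (by decide))
    · exact h93_gram_off _ _ _ _ (hw 2 0 (by decide)) (hw 3 0 (by decide)) (hw 2 3 (by decide))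
  · have hΦ : (fun x => h93M (w 1 - w 0) (w 2 - w 0) (w 3 - w 0) x +
        (w 0 + (1 / 2 : ℝ) • (w 1 - w 0))) =
        ⇑((h93M (w 1 - w 0) (w 2 - w 0) (w 3 - w 0)).toAffineMap +
          AffineMap.const ℝ E3 (w 0 + (1 / 2 : ℝ) • (w 1 - w 0))) := by
      ext x
      simp
    rw [hΦ, AffineMap.image_convexHull, ← hΦ, h93_range_fin4]
    have e0 : h93M (w 1 - w 0) (w 2 - w 0) (w 3 - w 0) (!₂[1, 0, 0] : E3) +
        (w 0 + (1 / 2 : ℝ) • (w 1 - w 0)) = w 0 := by
      rw [h93M_apply]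
      simp
      module
    have e1 : h93M (w 1 - w 0) (w 2 - w 0) (w 3 - w 0) (!₂[-1, 0, 0] : E3) +
        (w 0 + (1 / 2 : ℝ) • (w 1 - w 0)) = w 1 := by
      rw [h93M_apply]
      simp
      module
    have e2 : h93M (w 1 - w 0) (w 2 - w 0) (w 3 - w 0) (!₂[0, 1, Real.sqrt 2] : E3) +
        (w 0 + (1 / 2 : ℝ) • (w 1 - w 0)) = w 2 := by
      rw [h93M_apply]
      simp
      module
    have e3 : h93M (w 1 - w 0) (w 2 - w 0) (w 3 - w 0) (!₂[0, -1, Real.sqrt 2] : E3) +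
        (w 0 + (1 / 2 : ℝ) • (w 1 - w 0)) = w 3 := by
      rw [h93M_apply]
      simp
      module
    simp only [Set.image_insert_eq, Set.image_singleton, e0, e1, e2, e3]

/-! ### Generic facts about similarities `x ↦ M x + b`, `⟪M x, M y⟫ = lam² ⟪x, y⟫` -/

theorem h93_norm_map {M : E3 →ₗ[ℝ] E3} {lam : ℝ} (hlam : 0 < lam)
    (hM : ∀ x y, inner ℝ (M x) (M y) = lam ^ 2 * inner ℝ x y) (x : E3) : ‖M x‖ = lam * ‖x‖ := by
  have h := hM x x
  rw [real_inner_self_eq_norm_sq, real_inner_self_eq_norm_sq] at h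
  have h2 : ‖M x‖ ^ 2 = (lam * ‖x‖) ^ 2 := by rw [h]; ring
  exact (sq_eq_sq₀ (norm_nonneg _) (by positivity)).mp h2

theorem h93_gram_map {M : E3 →ₗ[ℝ] E3} {lam : ℝ} (hlam : 0 < lam)
    (hM : ∀ x y, inner ℝ (M x) (M y) = lam ^ 2 * inner ℝ x y) (x y : E3) :
    gram (M x) (M y) = lam ^ 4 * gram x y := by
  unfold gram
  rw [h93_norm_map hlam hM, h93_norm_map hlam hM, hM]
  ring

open scoped Pointwise in
theorem h93_measure_similarity {M : E3 →ₗ[ℝ] E3} {lam : ℝ} (hlam : 0 < lam)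
    (hM : ∀ x y, inner ℝ (M x) (M y) = lam ^ 2 * inner ℝ x y) (c : E3) (T : Set E3) :
    μHE[2] ((fun z => M z + c) '' T) = ENNReal.ofReal (lam ^ 2) * μHE[2] T := by
  have hiso : Isometry (fun z : E3 => lam⁻¹ • (M z + c)) := by
    refine isometry_iff_dist_eq.mpr (fun x y => ?_)
    rw [dist_eq_norm, dist_eq_norm, ← smul_sub, add_sub_add_right_eq_sub, ← map_sub, norm_smul,
      h93_norm_map hlam hM, norm_inv, Real.norm_of_nonneg hlam.le]
    field_simp
  have himg : (fun z => M z + c) '' T = lam • ((fun z : E3 => lam⁻¹ • (M z + c)) '' T) := by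
    rw [← Set.image_smul, Set.image_image]
    refine Set.image_congr fun z _ => ?_
    rw [smul_smul, mul_inv_cancel₀ hlam.ne', one_smul]
  rw [himg, Measure.euclideanHausdorffMeasure_smul₀ 2 hlam.ne', hiso.euclideanHausdorffMeasure_image]
  rw [ENNReal.smul_def, smul_eq_mul]
  congr 1
  rw [ENNReal.ofReal_pow hlam.le, ENNReal.coe_pow, ← enorm_eq_nnnorm, Real.enorm_eq_ofReal hlam.le]

theorem h93_proj_transport {M : E3 →ₗ[ℝ] E3} {lam : ℝ} (hlam : 0 < lam)
    (hM : ∀ x y, inner ℝ (M x) (M y) = lam ^ 2 * inner ℝ x y) (b : E3) (v : E3) (hv : ‖v‖ = 1) :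
    ∃ v0 : E3, ‖v0‖ = 1 ∧ ∀ S : Set E3,
      μHE[2] ((fun y : E3 => y - inner ℝ y v • v) '' ((fun x => M x + b) '' S)) =
        ENNReal.ofReal (lam ^ 2) * μHE[2] ((fun y : E3 => y - inner ℝ y v0 • v0) '' S) := by
  have hinj : Function.Injective M := by
    rw [injective_iff_map_eq_zero]
    intro x hx
    have h := h93_norm_map hlam hM x
    rw [hx, norm_zero] at h
    have : ‖x‖ = 0 := by
      rcases mul_eq_zero.mp h.symm with h | h
      · exact absurd h hlam.ne'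
      · exact h
    exact norm_eq_zero.mp this
  obtain ⟨v1, hv1⟩ := LinearMap.injective_iff_surjective.mp hinj v
  refine ⟨lam • v1, ?_, fun S => ?_⟩
  · rw [norm_smul, Real.norm_of_nonneg hlam.le, ← h93_norm_map hlam hM, hv1, hv]
  · have hkey : ∀ z : E3, M z + b - inner ℝ (M z + b) v • v =
        M (z - inner ℝ z (lam • v1) • (lam • v1)) + (b - inner ℝ b v • v) := by
      intro z
      have h1 : inner ℝ (M z) v = lam ^ 2 * inner ℝ z v1 := by rw [← hv1, hM]
      rw [inner_add_left, h1, map_sub, map_smul, map_smul, hv1, inner_smul_right]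
      module
    rw [Set.image_image]
    have himg : (fun x => M x + b - inner ℝ (M x + b) v • v) '' S =
        (fun z => M z + (b - inner ℝ b v • v)) ''
          ((fun y : E3 => y - inner ℝ y (lam • v1) • (lam • v1)) '' S) := by
      rw [Set.image_image]
      exact Set.image_congr fun z _ => hkey z
    rw [himg, h93_measure_similarity hlam hM]

theorem h93_image_convexHull_subset {g : E3 → E3}
    (hg : ∀ (x y : E3) (a b : ℝ), 0 ≤ a → 0 ≤ b → a + b = 1 → g (a • x + b • y) = a • g x + b • g y)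
    (s : Set E3) : g '' convexHull ℝ s ⊆ convexHull ℝ (g '' s) := by
  rintro _ ⟨x, hx, rfl⟩
  have hsub : convexHull ℝ s ⊆ g ⁻¹' convexHull ℝ (g '' s) := by
    apply convexHull_min
    · intro y hy
      exact subset_convexHull ℝ _ ⟨y, hy, rfl⟩
    · intro x hx y hy a b ha hb hab
      show g (a • x + b • y) ∈ convexHull ℝ (g '' s)
      rw [hg x y a b ha hb hab]
      exact (convex_convexHull ℝ _) hx hy ha hb hab
  exact hsub hx

/-- Transport of one cylinder over a triangle along a similarity. -/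
theorem h93_cylinder_transport {M : E3 →ₗ[ℝ] E3} {lam : ℝ} (hlam : 0 < lam)
    (hM : ∀ x y, inner ℝ (M x) (M y) = lam ^ 2 * inner ℝ x y) (b : E3)
    (u p q r : E3) (hu : ‖u‖ = 1)
    (hp : inner ℝ p u = 0) (hq : inner ℝ q u = 0) (hr : inner ℝ r u = 0) :
    ∃ (u' p' q' r' : E3), ‖u'‖ = 1 ∧
      (inner ℝ p' u' = 0 ∧ inner ℝ q' u' = 0 ∧ inner ℝ r' u' = 0) ∧
      gram (q' - p') (r' - p') = lam ^ 4 * gram (q - p) (r - p) ∧
      ∀ y ∈ convexHull ℝ ({p, q, r} : Set E3), ∀ t : ℝ,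
        ∃ y' ∈ convexHull ℝ ({p', q', r'} : Set E3), ∃ t' : ℝ,
          M (y + t • u) + b = y' + t' • u' := by
  set u' : E3 := lam⁻¹ • M u with hu'
  have hu'1 : ‖u'‖ = 1 := by
    rw [hu', norm_smul, h93_norm_map hlam hM, hu, norm_inv, Real.norm_of_nonneg hlam.le]
    field_simp
  have hu'u' : inner ℝ u' u' = 1 := by rw [real_inner_self_eq_norm_sq, hu'1]; norm_num
  set g : E3 → E3 := fun z => (M z + b) - inner ℝ (M z + b) u' • u' with hg
  have hperp : ∀ z, inner ℝ (g z) u' = 0 := by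
    intro z
    simp only [hg, inner_sub_left, inner_smul_left, hu'u', RCLike.conj_to_real]
    ring
  have hMu : ∀ z, inner ℝ z u = 0 → inner ℝ (M z) u' = 0 := by
    intro z hz
    rw [hu', inner_smul_right, hM, hz]
    ring
  have hdiff : ∀ z z', inner ℝ z u = 0 → inner ℝ z' u = 0 → g z - g z' = M (z - z') := by
    intro z z' hz hz'
    have h1 := hMu z hz
    have h2 := hMu z' hz'
    simp only [hg, inner_add_left, h1, h2, map_sub]
    module
  refine ⟨u', g p, g q, g r, hu'1, ⟨hperp p, hperp q, hperp r⟩, ?_, ?_⟩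
  · rw [hdiff q p hq hp, hdiff r p hr hp, h93_gram_map hlam hM]
  · intro y hy t
    have hgaff : ∀ (x y : E3) (a b : ℝ), 0 ≤ a → 0 ≤ b → a + b = 1 →
        g (a • x + b • y) = a • g x + b • g y := by
      intro x y a c _ _ hac
      have hc : c = 1 - a := by linarith
      subst hc
      simp only [hg, map_add, map_smul, inner_add_left, inner_smul_left, RCLike.conj_to_real]
      module
    have hgy : g y ∈ convexHull ℝ ({g p, g q, g r} : Set E3) := by
      have h := h93_image_convexHull_subset hgaff {p, q, r} ⟨y, hy, rfl⟩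
      simpa only [Set.image_insert_eq, Set.image_singleton] using h
    refine ⟨g y, hgy, inner ℝ (M y + b) u' + t * lam, ?_⟩
    have hlam' : lam ≠ 0 := hlam.ne'
    simp only [hg, hu', map_add, map_smul]
    match_scalars <;> field_simp
    ring

/-! ### The theorems of package P5a, with the facts about `Kstd` as hypotheses -/

/-- A regular tetrahedron of edge `ℓ` is covered by cylinders over nondegenerate triangles of total
area at most `(ℓ/2)² A`, given such a cover of `Kstd` of total area at most `A`. -/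
theorem h93_tetra_cover_of {A : ℝ}
    (hcore : ∃ (m : ℕ) (u p q r : Fin m → E3), (∀ i, ‖u i‖ = 1) ∧
      (∀ i, inner ℝ (p i) (u i) = 0 ∧ inner ℝ (q i) (u i) = 0 ∧ inner ℝ (r i) (u i) = 0) ∧
      (∀ i, 0 < gram (q i - p i) (r i - p i)) ∧
      Kstd ⊆ ⋃ i, {x : E3 | ∃ b ∈ convexHull ℝ {p i, q i, r i}, ∃ t : ℝ, x = b + t • u i} ∧
      ∑ i, Real.sqrt (gram (q i - p i) (r i - p i)) / 2 ≤ A)
    (w : Fin 4 → E3) (ℓ : ℝ) (hℓ : 0 < ℓ)
    (hw : ∀ i j, i ≠ j → dist (w i) (w j) = ℓ) :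
    ∃ (m : ℕ) (u p q r : Fin m → E3), (∀ i, ‖u i‖ = 1) ∧
      (∀ i, inner ℝ (p i) (u i) = 0 ∧ inner ℝ (q i) (u i) = 0 ∧ inner ℝ (r i) (u i) = 0) ∧
      (∀ i, 0 < gram (q i - p i) (r i - p i)) ∧
      convexHull ℝ (Set.range w) ⊆
        ⋃ i, {x : E3 | ∃ b ∈ convexHull ℝ {p i, q i, r i}, ∃ t : ℝ, x = b + t • u i} ∧
      ∑ i, Real.sqrt (gram (q i - p i) (r i - p i)) / 2 ≤ (ℓ / 2) ^ 2 * A := by
  obtain ⟨m, u, p, q, r, hu, hperp, hpos, hcov, hsum⟩ := hcore
  obtain ⟨M, b, hM, hK⟩ := h93_exists_similarity w ℓ hw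
  have hlam : 0 < ℓ / 2 := half_pos hℓ
  have hT := fun i => h93_cylinder_transport hlam hM b (u i) (p i) (q i) (r i) (hu i)
    (hperp i).1 (hperp i).2.1 (hperp i).2.2
  choose u' p' q' r' hu' hperp' hgram hcyl using hT
  refine ⟨m, u', p', q', r', hu', hperp', ?_, ?_, ?_⟩
  · intro i
    rw [hgram i]
    exact mul_pos (pow_pos hlam 4) (hpos i)
  · rw [← hK]
    rintro _ ⟨x, hx, rfl⟩
    obtain ⟨i, hi⟩ := Set.mem_iUnion.mp (hcov hx)
    obtain ⟨y, hy, t, rfl⟩ := hi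
    obtain ⟨y', hy', t', h⟩ := hcyl i y hy t
    exact Set.mem_iUnion.mpr ⟨i, y', hy', t', h⟩
  · have hterm : ∀ i, Real.sqrt (gram (q' i - p' i) (r' i - p' i)) / 2 =
        (ℓ / 2) ^ 2 * (Real.sqrt (gram (q i - p i) (r i - p i)) / 2) := by
      intro i
      rw [hgram i, show (ℓ / 2) ^ 4 = ((ℓ / 2) ^ 2) ^ 2 by ring,
        Real.sqrt_mul (by positivity), Real.sqrt_sq (by positivity)]
      ring
    simp only [hterm]
    rw [← Finset.mul_sum]
    exact mul_le_mul_of_nonneg_left hsum (by positivity)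

/-- Every orthogonal projection of a regular tetrahedron of edge `ℓ` has area at least
`(ℓ/2)² a`, if every orthogonal projection of `Kstd` has area at least `a`. -/
theorem h93_tetra_proj_ge_of {a : ℝ} (ha : 0 ≤ a)
    (hge : ∀ v : E3, ‖v‖ = 1 →
      ENNReal.ofReal a ≤ μHE[2] ((fun y : E3 => y - inner ℝ y v • v) '' Kstd))
    (w : Fin 4 → E3) (ℓ : ℝ) (hℓ : 0 < ℓ)
    (hw : ∀ i j, i ≠ j → dist (w i) (w j) = ℓ) (v : E3) (hv : ‖v‖ = 1) :
    ENNReal.ofReal ((ℓ / 2) ^ 2 * a) ≤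
      μHE[2] ((fun y : E3 => y - inner ℝ y v • v) '' convexHull ℝ (Set.range w)) := by
  have _ := ha
  obtain ⟨M, b, hM, hK⟩ := h93_exists_similarity w ℓ hw
  obtain ⟨v0, hv0, hS⟩ := h93_proj_transport (half_pos hℓ) hM b v hv
  rw [← hK, hS, ENNReal.ofReal_mul (by positivity)]
  gcongr
  exact hge v0 hv0

/-- Projections of a regular tetrahedron have finite area, if those of `Kstd` do. -/
theorem h93_tetra_proj_lt_top_of
    (hlt : ∀ v : E3, ‖v‖ = 1 → μHE[2] ((fun y : E3 => y - inner ℝ y v • v) '' Kstd) < ⊤)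
    (w : Fin 4 → E3) (ℓ : ℝ) (hℓ : 0 < ℓ)
    (hw : ∀ i j, i ≠ j → dist (w i) (w j) = ℓ) (v : E3) (hv : ‖v‖ = 1) :
    μHE[2] ((fun y : E3 => y - inner ℝ y v • v) '' convexHull ℝ (Set.range w)) < ⊤ := by
  obtain ⟨M, b, hM, hK⟩ := h93_exists_similarity w ℓ hw
  obtain ⟨v0, hv0, hS⟩ := h93_proj_transport (half_pos hℓ) hM b v hv
  rw [← hK, hS]
  exact ENNReal.mul_lt_top ENNReal.ofReal_lt_top (hlt v0 hv0)

end Crest.Agent.S0327
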