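import Mathlib
import Crest.Agent.Lib.S0324.Area
import Crest.Agent.Lib.S0324.Proj
import Crest.Agent.Lib.S0324.Cover
import Crest.Agent.Lib.S0327.Helper93Sim

/-!
# Row 211, package P5a: regular tetrahedra are similar to `Kstd` (interface module)

The cylinder cover of `Kstd` (`core_cover`, package P3) and the projection bounds
(`proj_Kstd_ge`, `proj_Kstd_lt_top`, package P2) transported to an arbitrary regular tetrahedron
along the similarity of `Crest.Agent.Lib.S0327.Helper93Sim`.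
-/

set_option autoImplicit false
open MeasureTheory
open scoped ENNReal
open Crest.Agent.S0324

namespace Crest.Agent.S0327

/-- P5a: a regular tetrahedron of edge `ℓ` is covered by cylinders over nondegenerate triangles of
total area at most `(ℓ/2)² √2 (1/2 - 10⁻⁹)`. -/
theorem tetra_cover (w : Fin 4 → E3) (ℓ : ℝ) (hℓ : 0 < ℓ)
    (hw : ∀ i j, i ≠ j → dist (w i) (w j) = ℓ) :
    ∃ (m : ℕ) (u p q r : Fin m → E3), (∀ i, ‖u i‖ = 1) ∧
      (∀ i, inner ℝ (p i) (u i) = 0 ∧ inner ℝ (q i) (u i) = 0 ∧ inner ℝ (r i) (u i) = 0) ∧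
      (∀ i, 0 < gram (q i - p i) (r i - p i)) ∧
      convexHull ℝ (Set.range w) ⊆
        ⋃ i, {x : E3 | ∃ b ∈ convexHull ℝ {p i, q i, r i}, ∃ t : ℝ, x = b + t • u i} ∧
      ∑ i, Real.sqrt (gram (q i - p i) (r i - p i)) / 2 ≤
        (ℓ / 2) ^ 2 * (Real.sqrt 2 * (1 / 2 - 1 / 10 ^ 9)) := by
  refine h93_tetra_cover_of ?_ w ℓ hℓ hw
  obtain ⟨m, u, p, q, r, -, hu, hperp, hpos, hcov, hsum⟩ := core_cover
  exact ⟨m, u, p, q, r, hu, hperp, hpos, hcov, hsum⟩

/-- P5a: every orthogonal projection of a regular tetrahedron of edge `ℓ` has area at least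
`(ℓ/2)² √2`. -/
theorem tetra_proj_ge (w : Fin 4 → E3) (ℓ : ℝ) (hℓ : 0 < ℓ)
    (hw : ∀ i j, i ≠ j → dist (w i) (w j) = ℓ) (v : E3) (hv : ‖v‖ = 1) :
    ENNReal.ofReal ((ℓ / 2) ^ 2 * Real.sqrt 2) ≤
      μHE[2] ((fun y : E3 => y - inner ℝ y v • v) '' convexHull ℝ (Set.range w)) :=
  h93_tetra_proj_ge_of (Real.sqrt_nonneg 2) proj_Kstd_ge w ℓ hℓ hw v hv

/-- P5a: projections of a regular tetrahedron have finite area. -/
theorem tetra_proj_lt_top (w : Fin 4 → E3) (ℓ : ℝ) (hℓ : 0 < ℓ)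
    (hw : ∀ i j, i ≠ j → dist (w i) (w j) = ℓ) (v : E3) (hv : ‖v‖ = 1) :
    μHE[2] ((fun y : E3 => y - inner ℝ y v • v) '' convexHull ℝ (Set.range w)) < ⊤ :=
  h93_tetra_proj_lt_top_of proj_Kstd_lt_top w ℓ hℓ hw v hv

end Crest.Agent.S0327
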